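import Vale.Agent.P088.R2.H660.W.Pass
import Vale.Agent.P088.R2.H230.W.CvG

/-!
# P088, stage 3: the pointwise certificate at the flat pass in curved slots
-/

open Set Filter
open scoped ContDiff Topology

noncomputable section

namespace Vale.Agent.P088.R2.H660.P

open Vale.Agent.P088.R2.H961.GW Vale.Agent.P088.R2.H960.W Vale.Agent.P088.R2.H644.Ch
  Vale.Agent.P088.R2.H230.W Vale.Agent.P088.R2.H660.W

section vec

variable {ι : Type*} [Fintype ι]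

lemma sq_le_of_nn {u : ι → ℝ} {a : ℝ} (h : nn u ≤ a) : dd u u ≤ a ^ 2 := by
  rw [← nn_sq]; exact pow_le_pow_left₀ (nn_nonneg _) h 2

/-- The direction of a vector close to a multiple of a unit vector. -/
lemma dir_ok {e w p : ι → ℝ} {s ρ : ℝ} (he : dd e e = 1) (hw : w = s • e + p) (hp : nn p ≤ ρ)
    (hs : 21 * ρ ≤ s) (s0 : 0 < s) : 0 < dd w w ∧ (1 - 1 / 400) * dd w w ≤ dd w e ^ 2 := by
  have ρ0 : 0 ≤ ρ := (nn_nonneg _).trans hp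
  have n3 : nn w ≥ s - ρ := by
    have h3 := nn_le_add (s • e) w
    have h4 : nn (s • e - w) = nn p := by
      rw [nn_sub_comm, hw, add_sub_cancel_left]
    rw [nn_smul, nn_one he, abs_of_pos s0, h4] at h3
    linarith
  refine ⟨dd_pos_of_nn (by linarith), ?_⟩
  -- `w - (w·e) e = p - (p·e) e`
  have e1 : dd w w - dd w e ^ 2 = dd p p - dd p e ^ 2 := by
    rw [hw]
    simp only [dd_add_left, dd_add_right, dd_smul_left, dd_smul_right, he, dd_comm e p]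
    ring
  have h1 : dd p p ≤ ρ ^ 2 := sq_le_of_nn hp
  have h2 : (20 * ρ) ^ 2 ≤ dd w w := by
    rw [← nn_sq]
    exact pow_le_pow_left₀ (by linarith) (by linarith) 2
  have h3 := sq_nonneg (dd p e)
  have h4 : (20 * ρ) ^ 2 = 400 * ρ ^ 2 := by ring
  linarith

/-- The form at the flat pass, pure vectors. -/
lemma core_in {φ₁ φ₂ e' h w U V : ι → ℝ} {G₀ K l w₀ : ℝ} (G0 : 0 < G₀) (K0 : 0 ≤ K)
    (K1 : 20 * K ≤ 3 * G₀) (l0 : 0 < l) (l1 : 1 - 1 / 1000000 ≤ l ^ 2)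
    (l2 : l ^ 2 ≤ 1 + 1 / 1000000) (hs : φ₁ + φ₂ = l • e') (he : dd e' e' = 1)
    (hh : dd h h = 1) (hφ : nn φ₁ ≤ w₀) (w1 : 200 * w₀ ≤ 1) (hw : 0 < dd w w)
    (hwe : (1 - 1 / 400) * dd w w ≤ dd w e' ^ 2) :
    4 / 5 * K * lat h U - 28 * (G₀ * w₀ ^ 2) * dd U U + G₀ / 11 * dd V V ≤
      4 * G₀ * (dd φ₁ U + dd φ₂ V) ^ 2 + K * (dd (U - V) (U - V) - dd h (U - V) ^ 2) +
        TT (cp w G₀) w V := by
  have w0 : 0 ≤ w₀ := (nn_nonneg _).trans hφ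
  have lp : 0 < 4 * G₀ * l ^ 2 := by positivity
  have hl9 : 9 / 10 ≤ l := by
    by_contra hc
    have hc := not_le.1 hc
    nlinarith
  have c0 := pass_cert (h := h) (U := U) (V := V) (φ₁ := l⁻¹ • φ₁) (φ₂ := l⁻¹ • φ₂)
    (k := K / (4 * G₀ * l ^ 2)) (m := 0)
    (η := (w₀ / l) ^ 2) (ε := 1 / 400) he hh (by positivity) ?_ ?_ (by norm_num)
    le_rfl (by norm_num) (w := w) ?_ ?_ hw hwe
  rotate_left
  · rw [← mul_div_assoc, div_le_one lp]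
    have : 3 * G₀ ≤ 4 * G₀ * l ^ 2 := by nlinarith
    linarith
  · have h1 : w₀ / l ≤ 1 / 20 := by
      rw [div_le_iff₀ l0]; linarith
    have h2 : (w₀ / l) ^ 2 ≤ (1 / 20) ^ 2 := pow_le_pow_left₀ (by positivity) h1 2
    linarith
  · rw [← smul_add, hs, smul_smul, inv_mul_cancel₀ l0.ne', one_smul]
  · have h1 : nn (l⁻¹ • φ₁) ≤ w₀ / l := by
      rw [nn_smul, abs_of_pos (inv_pos.2 l0), inv_mul_eq_div]
      exact div_le_div_of_nonneg_right hφ l0.le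
    exact sq_le_of_nn h1
  have c1 := mul_le_mul_of_nonneg_left c0 lp.le
  have q1 : 4 * G₀ * l ^ 2 * (dd (l⁻¹ • φ₁) U + dd (l⁻¹ • φ₂) V) ^ 2 =
      4 * G₀ * (dd φ₁ U + dd φ₂ V) ^ 2 := by
    simp only [dd_smul_left]
    field_simp
  have q2 : 4 * G₀ * l ^ 2 * (K / (4 * G₀ * l ^ 2)) = K := by
    field_simp
  have q4 : 4 * G₀ * l ^ 2 * (w₀ / l) ^ 2 = 4 * (G₀ * w₀ ^ 2) := by
    field_simp
  have hVV := dd_self_nonneg V
  have t1 := TT_cp hw (1 / 4) V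
  have t2 := TT_cp hw G₀ V
  have gw : 0 ≤ dd w V ^ 2 / dd w w := by positivity
  have gw2 : dd w V ^ 2 / dd w w ≤ dd V V := by
    rw [div_le_iff₀ hw]
    have := H660.W.dd_cs w V
    linarith
  obtain ⟨x, hx⟩ : ∃ x, x = dd w V ^ 2 / dd w w := ⟨_, rfl⟩
  rw [← hx] at t1 t2 gw gw2
  have t4 : 4 * G₀ * l ^ 2 * TT (cp w (1 / 4)) w V ≤ TT (cp w G₀) w V +
      G₀ / 100000 * dd V V := by
    rw [t1, t2]
    have g1 : 0 ≤ G₀ * dd V V := by positivity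
    have g2 : G₀ * x ≤ G₀ * dd V V := mul_le_mul_of_nonneg_left gw2 G0.le
    have g3 : 0 ≤ G₀ * x := by positivity
    have h1 : (l ^ 2 - 1) * (G₀ * dd V V) ≤ 1 / 1000000 * (G₀ * dd V V) :=
      mul_le_mul_of_nonneg_right (by linarith) g1
    have h2 : (1 - l ^ 2) * (G₀ * x) ≤ 1 / 1000000 * (G₀ * x) :=
      mul_le_mul_of_nonneg_right (by linarith) g3
    linarith
  have s1 : 4 * G₀ * l ^ 2 * (4 / 5 * (K / (4 * G₀ * l ^ 2)) * lat h U -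
      (7 * (w₀ / l) ^ 2 + 2 * 0) * dd U U + 1 / 40 * dd V V) =
      4 / 5 * K * lat h U - 28 * (G₀ * w₀ ^ 2) * dd U U + l ^ 2 * (G₀ / 10 * dd V V) := by
    have a1 : 4 * G₀ * l ^ 2 * (4 / 5 * (K / (4 * G₀ * l ^ 2)) * lat h U -
      (7 * (w₀ / l) ^ 2 + 2 * 0) * dd U U + 1 / 40 * dd V V) =
      4 / 5 * (4 * G₀ * l ^ 2 * (K / (4 * G₀ * l ^ 2))) * lat h U -
      7 * (4 * G₀ * l ^ 2 * (w₀ / l) ^ 2) * dd U U + l ^ 2 * (G₀ / 10 * dd V V) := by ring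
    rw [a1, q2, q4]
    ring
  have s2 : 4 * G₀ * l ^ 2 * ((dd (l⁻¹ • φ₁) U + dd (l⁻¹ • φ₂) V) ^ 2 +
      K / (4 * G₀ * l ^ 2) * (dd (U - V) (U - V) - dd h (U - V) ^ 2) -
      0 * dd h (U - V) ^ 2 + TT (cp w (1 / 4)) w V) =
      4 * G₀ * (dd φ₁ U + dd φ₂ V) ^ 2 + K * (dd (U - V) (U - V) - dd h (U - V) ^ 2) +
      4 * G₀ * l ^ 2 * TT (cp w (1 / 4)) w V := by
    have a1 : 4 * G₀ * l ^ 2 * ((dd (l⁻¹ • φ₁) U + dd (l⁻¹ • φ₂) V) ^ 2 +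
      K / (4 * G₀ * l ^ 2) * (dd (U - V) (U - V) - dd h (U - V) ^ 2) -
      0 * dd h (U - V) ^ 2 + TT (cp w (1 / 4)) w V) =
      4 * G₀ * l ^ 2 * (dd (l⁻¹ • φ₁) U + dd (l⁻¹ • φ₂) V) ^ 2 +
      (4 * G₀ * l ^ 2 * (K / (4 * G₀ * l ^ 2))) * (dd (U - V) (U - V) - dd h (U - V) ^ 2) +
      4 * G₀ * l ^ 2 * TT (cp w (1 / 4)) w V := by ring
    rw [a1, q1, q2]
  rw [s1, s2] at c1
  have s3 : (1 - 1 / 1000000) * (G₀ / 10 * dd V V) ≤ l ^ 2 * (G₀ / 10 * dd V V) :=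
    mul_le_mul_of_nonneg_right l1 (by positivity)
  have s4 : 0 ≤ G₀ * dd V V := by positivity
  linarith

end vec

variable {E ι : Type*} [NormedAddCommGroup E] [NormedSpace ℝ E] [Fintype ι]
variable {σ τ : Sl E ι} {u r W : E → ℝ} {e h A B : ι → ℝ} {z : E} {ε g : ℝ}

/-- The field `(a / |w|²) w`, `w = D W`. -/
def cq (τ : Sl E ι) (W a : E → ℝ) (l : ι) (z : E) : ℝ :=
  a z / dd (gr τ W z) (gr τ W z) * τ.D l W z

lemma cq_eq (τ : Sl E ι) (W a : E → ℝ) (z : E) :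
    (fun l => cq τ W a l z) = cp (gr τ W z) (a z) := rfl

lemma nn_cp {w : ι → ℝ} (hw : 0 < dd w w) {a : ℝ} (ha : 0 ≤ a) : nn (cp w a) * nn w = a := by
  have h := cp_sq hw a
  have h1 : (nn (cp w a) * nn w) ^ 2 = a ^ 2 := by rw [mul_pow, nn_sq, nn_sq, h]
  have h2 : 0 ≤ nn (cp w a) * nn w := mul_nonneg (nn_nonneg _) (nn_nonneg _)
  exact (pow_left_inj₀ h2 ha two_ne_zero).1 h1

/-- `φ₁`, `φ₂`. -/
def ph (σ : Sl E ι) (u r : E → ℝ) (L : ℝ) (z : E) : ι → ℝ :=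
  (1 / 2 : ℝ) • (gr σ u z + L • gr σ r z)

/-- The size of `φ₁`. -/
lemma ph_le {G₀ Φ₁ L w₀ : ℝ} (G : Geo σ τ u r e h ε g z) (hε : ε ≤ 1) (G0 : 0 < G₀) (Φ0 : 0 ≤ Φ₁)
    (w1 : gr σ W z = (Φ₁ + G₀) • gr σ u z + (G₀ * L) • gr σ r z)
    (hw₀ : nn (gr σ W z) + 2 * Φ₁ ≤ 2 * w₀ * G₀) : nn (ph σ u r L z) ≤ w₀ := by
  have e1 : ph σ u r L z = (1 / (2 * G₀)) • (gr σ W z - Φ₁ • gr σ u z) := by
    rw [w1]; unfold ph
    funext i
    simp only [Pi.add_apply, Pi.sub_apply, Pi.smul_apply, smul_eq_mul]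
    field_simp
    ring
  have n1 : nn (gr σ u z) ≤ 2 := by
    have := nn_le_add (gr σ u z) e
    rw [nn_one G.ee] at this
    linarith [G.ux]
  rw [e1, nn_smul, abs_of_pos (by positivity : (0:ℝ) < 1 / (2 * G₀)), div_mul_eq_mul_div, one_mul,
    div_le_iff₀ (by positivity)]
  refine (nn_sub_le _ _).trans ?_
  rw [nn_smul, abs_of_nonneg Φ0]
  have := mul_le_mul_of_nonneg_left n1 Φ0
  linarith

/-- The lower bound of the main part. -/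
lemma main_in {G₀ Φ₁ Φ₂ L L₁ : ℝ} (G : Geo σ τ u r e h ε g z) (hε : ε ≤ 1 / 100)
    (G0 : 0 < G₀) (L0 : 0 ≤ L) (L2 : L ≤ 21 / 10) (Φ0 : 0 ≤ Φ₁) (A B : ι → ℝ) {T : ℝ}
    (hT : T = Φ₁ * TH σ τ u z A B + Φ₂ * GA σ τ u z A B ^ 2 +
      (G₀ * (TH σ τ u z A B + L * TH σ τ r z A B + L₁ * GA σ τ r z A B ^ 2)) +
      G₀ * (GA σ τ u z A B + L * GA σ τ r z A B) ^ 2) :
    Φ₂ * GA σ τ u z A B ^ 2 + (Φ₁ + G₀) * g * (dd A A + dd B B) +
      G₀ * (GA σ τ u z A B + L * GA σ τ r z A B) ^ 2 + G₀ * L / r z *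
        (dd (sU σ z A - sU τ z B) (sU σ z A - sU τ z B) - dd h (sU σ z A - sU τ z B) ^ 2) -
      (3 * (G₀ * |L₁|) + 9 * (G₀ * ε / r z)) *
        (dd (sU σ z A) (sU σ z A) + dd (sU τ z B) (sU τ z B)) ≤ T := by
  have hr := G.r0
  have ε0 := G.ε0
  obtain ⟨U, hU⟩ : ∃ U, U = sU σ z A := ⟨_, rfl⟩
  obtain ⟨V, hV⟩ : ∃ V, V = sU τ z B := ⟨_, rfl⟩
  obtain ⟨Y, hY⟩ : ∃ Y, Y = GA σ τ r z A B := ⟨_, rfl⟩
  have tr := G.Tr A B
  have tu := G.Tu A B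
  have yr := GAr G A B
  have hA := (up_A (by linarith) (G.nx A)).1
  have hB := (up_A (by linarith) (G.ny B)).1
  have hq := nn_hQ G.hh (sU σ z A) (sU τ z B)
  rw [← hU, ← hV] at *
  rw [← hY] at yr hT ⊢
  obtain ⟨s, hs⟩ : ∃ s, s = nn U + nn V := ⟨_, rfl⟩
  obtain ⟨w, hw⟩ : ∃ w, w = dd U U + dd V V := ⟨_, rfl⟩
  have s0 : 0 ≤ s := by rw [hs]; exact add_nonneg (nn_nonneg _) (nn_nonneg _)
  have w0 : 0 ≤ w := by rw [hw]; exact add_nonneg (dd_self_nonneg _) (dd_self_nonneg _)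
  have sw : s ^ 2 ≤ 2 * w := by
    rw [hs, hw, ← nn_sq, ← nn_sq]; exact sum_sq
  have AB : dd A A + dd B B ≤ 4 * w := by
    have h1 := pow_le_pow_left₀ (nn_nonneg A) hA 2
    have h2 := pow_le_pow_left₀ (nn_nonneg B) hB 2
    rw [mul_pow, nn_sq, nn_sq] at h1 h2
    rw [hw]; linarith
  rw [← hs] at yr hq
  obtain ⟨t, ht⟩ : ∃ t, t = dd h (U - V) := ⟨_, rfl⟩
  rw [← ht] at yr hq tr ⊢
  rw [← hw]
  obtain ⟨Q, hQ⟩ : ∃ Q, Q = dd (U - V) (U - V) := ⟨_, rfl⟩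
  rw [← hQ] at tr ⊢
  have yb : |Y| ≤ 101 / 100 * s := by
    have h1 : |Y| ≤ |Y - t| + |t| := by
      have := abs_add_le (Y - t) t
      rwa [sub_add_cancel] at this
    have : ε * s ≤ 1 / 100 * s := mul_le_mul_of_nonneg_right (by linarith) s0
    linarith
  have y2 : Y ^ 2 ≤ 3 * w := by
    have h1 : Y ^ 2 ≤ (101 / 100 * s) ^ 2 := by
      rw [← sq_abs]; exact pow_le_pow_left₀ (abs_nonneg _) yb 2
    have h2 : (101 / 100 * s) ^ 2 = 10201 / 10000 * s ^ 2 := by ring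
    linarith
  have ri : 0 < (r z)⁻¹ := inv_pos.2 hr
  have p1 : (Φ₁ + G₀) * (g * (dd A A + dd B B)) ≤ (Φ₁ + G₀) * TH σ τ u z A B :=
    mul_le_mul_of_nonneg_left tu (by linarith)
  have p2 : (G₀ * L) * ((r z)⁻¹ * (Q - t ^ 2) - ε / r z * (4 * w)) ≤
      (G₀ * L) * TH σ τ r z A B := by
    refine mul_le_mul_of_nonneg_left ?_ (by positivity)
    have h1 := (abs_le.1 tr).1
    have h2 : ε / r z * (dd A A + dd B B) ≤ ε / r z * (4 * w) :=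
      mul_le_mul_of_nonneg_left AB (div_nonneg ε0 hr.le)
    linarith
  have p3 : -(G₀ * |L₁| * (3 * w)) ≤ G₀ * L₁ * Y ^ 2 := by
    have h1 : G₀ * |L₁| * Y ^ 2 ≤ G₀ * |L₁| * (3 * w) :=
      mul_le_mul_of_nonneg_left y2 (by positivity)
    have h2 : -(G₀ * |L₁| * Y ^ 2) ≤ G₀ * L₁ * Y ^ 2 := by
      have h3 : -|L₁| ≤ L₁ := neg_abs_le _
      have h4 : 0 ≤ G₀ * Y ^ 2 := by positivity
      have := mul_le_mul_of_nonneg_left h3 h4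
      linarith
    linarith
  have p4 : (G₀ * L) * (ε / r z * (4 * w)) ≤ 9 * (G₀ * ε / r z) * w := by
    have h1 : 0 ≤ G₀ * ε / r z * w := by positivity
    have h2 : (G₀ * L) * (ε / r z * (4 * w)) = 4 * L * (G₀ * ε / r z * w) := by ring
    rw [h2]
    have := mul_le_mul_of_nonneg_right (by linarith : 4 * L ≤ 9) h1
    linarith
  have e1 : (G₀ * L) * ((r z)⁻¹ * (Q - t ^ 2)) = G₀ * L / r z * (Q - t ^ 2) := by
    rw [div_eq_mul_inv]; ring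
  rw [hT]
  linarith

/-- **The certificate at the flat pass**, no field in the slot of the critical gradient. -/
theorem cert_in_at {G₀ Φ₁ Φ₂ L L₁ w₀ : ℝ} {a : E → ℝ} (G : Geo σ τ u r e h ε g z)
    (hε : ε ≤ 1 / 10000000) (G0 : 0 < G₀) (L1 : 1 / 2 ≤ L) (L2 : L ≤ 21 / 10)
    (hr : 100 ≤ r z) (r1 : 1000 * |L₁| ≤ 1) (Φ0 : 0 ≤ Φ₁) (Φw : Φ₁ ≤ w₀ * G₀)
    (w1 : 200 * w₀ ≤ 1)
    (e1 : gr σ W z = (Φ₁ + G₀) • gr σ u z + (G₀ * L) • gr σ r z)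
    (e2 : gr τ W z = (Φ₁ + G₀) • gr τ u z + (G₀ * L) • gr τ r z)
    (hw₀ : nn (gr σ W z) + 2 * Φ₁ ≤ 2 * w₀ * G₀) (ha : a z = G₀)
    (A B : ι → ℝ)
    (hT : TH σ τ W z A B = Φ₁ * TH σ τ u z A B + Φ₂ * GA σ τ u z A B ^ 2 +
      (G₀ * (TH σ τ u z A B + L * TH σ τ r z A B + L₁ * GA σ τ r z A B ^ 2)) +
      G₀ * (GA σ τ u z A B + L * GA σ τ r z A B) ^ 2) :
    Φ₂ * GA σ τ u z A B ^ 2 + (Φ₁ + G₀) * g * (dd A A + dd B B) +
      4 / 5 * (G₀ * L / r z) * lat h (sU σ z A) -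
      (28 * (G₀ * w₀ ^ 2) + 3 * (G₀ * |L₁|) + 9 * (G₀ * ε / r z)) *
        dd (sU σ z A) (sU σ z A) + G₀ / 12 * dd (sU τ z B) (sU τ z B) ≤
      TH σ τ W z A B + tc τ (cq τ W a) W z B := by
  have hr0 := G.r0
  have ε0 := G.ε0
  have main := main_in G (by linarith) G0 (by linarith) L2 Φ0 A B hT
  obtain ⟨U, hU⟩ : ∃ U, U = sU σ z A := ⟨_, rfl⟩
  obtain ⟨V, hV⟩ : ∃ V, V = sU τ z B := ⟨_, rfl⟩
  obtain ⟨φ₁, hφ₁⟩ : ∃ φ, φ = ph σ u r L z := ⟨_, rfl⟩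
  obtain ⟨φ₂, hφ₂⟩ : ∃ φ, φ = ph τ u r L z := ⟨_, rfl⟩
  have hφw : nn φ₁ ≤ w₀ := by rw [hφ₁]; exact ph_le G (by linarith) G0 Φ0 e1 hw₀
  have w₀0 : 0 ≤ w₀ := (nn_nonneg _).trans hφw
  -- the sum of the two covectors
  have sm : nn (φ₁ + φ₂ - e) ≤ 4 * ε := by
    have := om_sum (om := 0) G (by linarith) L2 (by norm_num)
    rw [add_zero] at this
    rw [hφ₁, hφ₂]; exact this
  obtain ⟨l, hl⟩ : ∃ l : ℝ, l = nn (φ₁ + φ₂) := ⟨_, rfl⟩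
  have hl1 : |l - 1| ≤ 4 * ε := by
    have := abs_nn_sub_le (φ₁ + φ₂) e
    rw [nn_one G.ee, ← hl] at this
    exact this.trans sm
  have hla := abs_le.1 hl1
  have hl0 : 0 < l := by linarith
  have hlu : l ^ 2 ≤ 1 + 1 / 1000000 := by nlinarith
  have hll : 1 - 1 / 1000000 ≤ l ^ 2 := by nlinarith
  obtain ⟨e', he'⟩ : ∃ e' : ι → ℝ, e' = l⁻¹ • (φ₁ + φ₂) := ⟨_, rfl⟩
  have hse : φ₁ + φ₂ = l • e' := by rw [he', smul_smul, mul_inv_cancel₀ hl0.ne', one_smul]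
  have hee' : dd e' e' = 1 := by
    rw [he', dd_smul_left, dd_smul_right, ← nn_mul_self, ← hl]
    field_simp
  -- the gradient of the second slot
  have nu2 : nn (gr τ u z) ≤ 2 := by
    have := nn_le_add (gr τ u z) e
    rw [nn_one G.ee] at this
    linarith [G.uy]
  have ew2 : gr τ W z = (2 * G₀ * l) • e' + (Φ₁ • gr τ u z - (2 * G₀) • φ₁) := by
    have : (2 * G₀ * l) • e' = (2 * G₀) • (φ₁ + φ₂) := by rw [hse, smul_smul]
    rw [this, e2, hφ₂]; unfold ph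
    funext i
    simp only [Pi.add_apply, Pi.sub_apply, Pi.smul_apply, smul_eq_mul]
    ring
  have np : nn (Φ₁ • gr τ u z - (2 * G₀) • φ₁) ≤ 4 * (w₀ * G₀) := by
    refine (nn_sub_le _ _).trans ?_
    rw [nn_smul, nn_smul, abs_of_nonneg Φ0, abs_of_pos (by positivity : (0:ℝ) < 2 * G₀)]
    have h1 := mul_le_mul_of_nonneg_left nu2 Φ0
    have h2 := mul_le_mul_of_nonneg_left hφw (by positivity : (0:ℝ) ≤ 2 * G₀)
    linarith
  obtain ⟨pw, dw⟩ := dir_ok hee' ew2 np (by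
    have h1 : w₀ * G₀ ≤ 1 / 200 * G₀ := mul_le_mul_of_nonneg_right (by linarith) G0.le
    have h2 : (9 / 10 : ℝ) * G₀ ≤ l * G₀ := mul_le_mul_of_nonneg_right (by linarith) G0.le
    linarith) (by positivity)
  have K1 : 20 * (G₀ * L / r z) ≤ 3 * G₀ := by
    rw [← mul_div_assoc, div_le_iff₀ hr0]
    have h1 := mul_le_mul_of_nonneg_left L2 G0.le
    have h2 := mul_le_mul_of_nonneg_left hr G0.le
    linarith
  have core := core_in (U := U) (V := V) G0 (by positivity : 0 ≤ G₀ * L / r z) K1 hl0 hll hlu hse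
    hee' G.hh hφw w1 pw dw
  have q1 : 4 * G₀ * (dd φ₁ U + dd φ₂ V) ^ 2 =
      G₀ * (GA σ τ u z A B + L * GA σ τ r z A B) ^ 2 := by
    rw [GA_dd G.sσ G.sτ, GA_dd G.sσ G.sτ, ← hU, ← hV, hφ₁, hφ₂]
    unfold ph
    simp only [dd_smul_left, dd_add_left]
    ring
  have hVV := dd_self_nonneg V
  have hUU := dd_self_nonneg U
  -- the field
  have hB := (up_A (by linarith) (G.ny B)).2
  rw [← hV] at hB
  have t3 : |TM (cp (gr τ W z) (a z)) (gr τ W z) B V - TT (cp (gr τ W z) (a z)) (gr τ W z) V| ≤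
      G₀ / 1000000 * dd V V := by
    refine (TM_sub_TT_le _ _ _ _).trans ?_
    rw [nn_cp pw (by rw [ha]; exact G0.le), ha]
    have h1 : nn (B - V) * nn V ≤ 2 * ε * nn V * nn V :=
      mul_le_mul_of_nonneg_right hB (nn_nonneg _)
    have h2 : 2 * ε * nn V * nn V = 2 * ε * dd V V := by rw [mul_assoc, nn_mul_self]
    have h3 : ε * dd V V ≤ 1 / 10000000 * dd V V := mul_le_mul_of_nonneg_right hε hVV
    have h4 : 3 * G₀ * (nn (B - V) * nn V) ≤ 3 * G₀ * (2 * (1 / 10000000 * dd V V)) :=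
      mul_le_mul_of_nonneg_left (by linarith) (by positivity)
    have h5 : 0 ≤ G₀ * dd V V := by positivity
    linarith
  have t3' := (abs_le.1 t3).1
  rw [tc_TM, cq_eq, ← hV]
  rw [← hU, ← hV] at main
  rw [← hU]
  rw [q1, ← ha] at core
  rw [ha] at core t3' ⊢
  have s4 : 3 * (G₀ * |L₁|) ≤ 3 / 1000 * G₀ := by
    have := mul_le_mul_of_nonneg_left r1 G0.le
    linarith
  have s5 : 9 * (G₀ * ε / r z) ≤ 9 / 10000000 * G₀ := by
    have h1 : G₀ * ε / r z ≤ G₀ * ε := by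
      rw [div_le_iff₀ hr0]
      have : 0 ≤ G₀ * ε := by positivity
      have := mul_le_mul_of_nonneg_left (by linarith : (1:ℝ) ≤ r z) this
      linarith
    have h2 := mul_le_mul_of_nonneg_left hε G0.le
    linarith
  have s6 := mul_le_mul_of_nonneg_right s4 hVV
  have s7 := mul_le_mul_of_nonneg_right s5 hVV
  have s8 : 0 ≤ G₀ * dd V V := by positivity
  linarith

end Vale.Agent.P088.R2.H660.P
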