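import Vale.Agent.P088.R2.H660.W.Tube
import Vale.Agent.P088.R2.H230.W.CvH

/-!
# P088, stage 3: the flat pass, statements of the pointwise rows
-/

open MeasureTheory Set Filter
open scoped ContDiff Topology

noncomputable section

namespace Vale.Agent.P088.R2.H660.P

open Vale.Agent.P088.R2.H961.GW Vale.Agent.P088.R2.H644 Vale.Agent.P088.R2.H960.W
  Vale.Agent.P088.R2.H747.S Vale.Agent.P088.R2.H660.W Vale.Agent.P088.R2.H230.W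

variable {E ι : Type*} [NormedAddCommGroup E] [NormedSpace ℝ E] [Fintype ι] [DecidableEq ι]

/-- `δ_ij`. -/
def dl (i j : ι) : ℝ := if i = j then 1 else 0

/-- The second derivatives in the slot of the critical gradient at a point of the flat pass:
`W_ij = K (δ_ij - h_i h_j) + b e_i e_j + O(ε K)`, `0 ≤ b ≤ 53/100 K`, `h ≈ -e`, `s ≈ 1`. -/
structure H2 (σ : Sl E ι) (W : E → ℝ) (e h : ι → ℝ) (K b ε : ℝ) (z : E) : Prop where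
  K0 : 0 < K
  b0 : 0 ≤ b
  b1 : b ≤ 53 / 100 * K
  hh : dd h h = 1
  ee : dd e e = 1
  he : ∀ i, |h i + e i| ≤ ε
  ss : ∀ i j, |σ.s i j z - dl i j| ≤ ε
  WW : ∀ i j, |σ.D i (σ.D j W) z - (K * (dl i j - h i * h j) + b * (e i * e j))| ≤ ε * K

/-- The form `s (1 - h h) s`. -/
def Ph (σ : Sl E ι) (h : ι → E → ℝ) (i j : ι) (z : E) : ℝ :=
  ∑ k, ∑ l, σ.s i k z * (dl k l - h k z * h l z) * σ.s l j z

/-- **Row G2.**  `Γ₂(W, W) ≤ (n - 1 + 3/10) K²` at a point of the flat pass (`n = card ι`). -/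
def RowPG2 (E ι : Type*) [NormedAddCommGroup E] [NormedSpace ℝ E] [Fintype ι] [DecidableEq ι] :
    Prop :=
  ∃ ε : ℝ, 0 < ε ∧ ∀ (σ : Sl E ι) (U : Set E) (θ W : E → ℝ) (e h : ι → ℝ) (K b w₁ δ₁ δ₂ : ℝ)
    (z : E), σ.Ok U θ → (∀ z, σ.ρ z = 1) → (∀ i z, σ.k i z = 0) → Sm U W → z ∈ U →
    H2 σ W e h K b ε z → (∀ i, |σ.D i W z| ≤ w₁) → (∀ l i j, |σ.D l (σ.s i j) z| ≤ δ₁) →
    (∀ l k i j, |σ.D l (σ.D k (σ.s i j)) z| ≤ δ₂) → δ₁ * w₁ ≤ ε * K → δ₂ * w₁ ^ 2 ≤ ε * K ^ 2 →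
    Ch.G2 σ W z ≤ ((Fintype.card ι : ℝ) - 1 + 3 / 10) * K ^ 2

/-- **Row ZP.**  The zero point energy of `q = ϑ (4/5) K s (1 - h h) s`; `ϑ` is the weight. -/
def RowPZP (E ι : Type*) [NormedAddCommGroup E] [NormedSpace ℝ E] [Fintype ι] [DecidableEq ι] :
    Prop :=
  ∃ ε C : ℝ, 0 < ε ∧ 0 < C ∧ ∀ (σ : Sl E ι) (U : Set E) (θ W K ϑ : E → ℝ) (h : ι → E → ℝ)
    (e : ι → ℝ) (b w₁ κ₁ η₁ t₁ : ℝ) (z : E),
    σ.Ok U θ → (∀ z, σ.ρ z = 1) → (∀ i z, σ.k i z = 0) → Sm U W → Sm U K → Sm U ϑ →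
    (∀ i, Sm U (h i)) → z ∈ U → 0 ≤ ϑ z → H2 σ W e (fun i => h i z) (K z) b ε z →
    (∀ i, |σ.D i W z| ≤ w₁) → (∀ i, |σ.D i K z| ≤ κ₁ * K z) →
    (∀ i j, |σ.D i (h j) z| ≤ η₁) → (∀ l i j, |σ.D l (σ.s i j) z| ≤ η₁) →
    (∀ i, |σ.D i ϑ z| ≤ t₁) →
    ϑ z * (4 / 5 * ((Fintype.card ι : ℝ) - 1 - 1 / 50) * K z ^ 2) -
      C * (ϑ z * ((κ₁ + η₁) * K z * w₁) + t₁ * K z * w₁) ≤
      zp σ (fun i j z => ϑ z * (4 / 5 * K z) * Ph σ h i j z) W z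

end Vale.Agent.P088.R2.H660.P
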