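import Vale.Agent.P088.R2.H660.P.Cert
import Vale.Agent.P088.R2.H660.P.Spec
import Vale.Agent.P088.R2.H747.S.Zn

/-!
# P088, stage 3: the flat pass, data at a point and the statement of the outer zone
-/

open MeasureTheory Set Filter
open scoped ContDiff Topology

noncomputable section

namespace Vale.Agent.P088.R2.H660.P

open Vale.Agent.P088.R2.H961.GW Vale.Agent.P088.R2.H644 Vale.Agent.P088.R2.H960.W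
  Vale.Agent.P088.R2.H230.W Vale.Agent.P088.R2.H551.E

variable {E ι : Type*} [NormedAddCommGroup E] [NormedSpace ℝ E] [Fintype ι] [DecidableEq ι]

/-- A slot of scale one close to the flat one. -/
structure Sb (σ : Sl E ι) (ε : ℝ) (z : E) : Prop where
  sy : ∀ i j, σ.s i j z = σ.s j i z
  ss : ∀ i j, |σ.s i j z - dl i j| ≤ ε
  s1 : ∀ l i j, |σ.D l (σ.s i j) z| ≤ ε
  k1 : ∀ l, σ.k l z = 0
  e1 : ∀ l, eta σ l z = 0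

/-- Bounds at a point of the flat pass (`σ` is the slot of the critical gradient): everything is
at most `C G`, the second derivatives in the critical slot are at most `C₁ κ G`; `κ G` is the
curvature `K = G L / r` up to a factor, `κ` is small, `C₁` does not depend on `κ`. -/
structure Wb (σ τ : Sl E ι) (v₁ v₂ W G : E → ℝ) (κ C₁ C : ℝ) (z : E) : Prop where
  G1 : 1 ≤ G z
  w1 : ∀ i, |σ.D i W z| ≤ C * G z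
  w1' : ∀ i, |τ.D i W z| ≤ C * G z
  w2 : ∀ i j, |σ.D i (σ.D j W) z| ≤ C₁ * κ * G z
  w2' : ∀ i j, |τ.D i (τ.D j W) z| ≤ C * G z
  g1 : ∀ i, |σ.D i G z| ≤ C * G z
  g1' : ∀ i, |τ.D i G z| ≤ C * G z
  lo : G z ≤ nn (gr τ W z)
  v1 : v₁ z = 0
  v2 : v₂ z = 0
  G2 : |Ch.G2 σ W z| ≤ C₁ * κ ^ 2 * G z ^ 2
  qf : ∀ (A B : ι → ℝ) (x y : ℝ),
    |H747.SW.qf σ τ v₁ v₂ W z A B x y + 8 * (Ch.G2 σ W z * x ^ 2)| ≤
      C * G z * ((|x| + |y|) * (nn A + nn B)) + C * G z ^ 2 * (|x| * |y| + y ^ 2) +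
        C * G z * x ^ 2

section row

variable (E ι)
variable [MeasureSpace E] [FiniteDimensional ℝ E] [BorelSpace E]
  [(volume : Measure E).IsAddHaarMeasure]

/-- **The zone outside the `K`-tube** (`M₁ κ G ≤ |W_x|²`).  `M₁` does not depend on `κ, C`. -/
def RowPOut : Prop :=
  ∀ C₁ c₀ c₂ η κ₀ : ℝ, 1 ≤ C₁ → 0 < c₀ → c₀ ≤ 1 → 0 ≤ c₂ → c₂ ≤ 1 → 0 < η → η ≤ 1 / 200 →
    η ≤ κ₀ → ∃ M₀ : ℝ, 1 ≤ M₀ ∧ ∀ M₁ κ C : ℝ, M₀ ≤ M₁ → 0 < κ → κ ≤ 1 → 1 ≤ C →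
  ∃ N₁ ε : ℝ, 1 ≤ N₁ ∧ 0 < ε ∧
  ∀ (σ τ : Sl E ι) (U Ω S : Set E) (θ v₁ v₂ W G χ : E → ℝ) (e : ι → ℝ),
    σ.Ok U θ → τ.Ok U θ → Sm U v₁ → Sm U v₂ → Sm U W → Sm U χ → IsOpen Ω → Ω ⊆ U → Sm Ω G →
    IsClosed S → U ∩ S ⊆ Ω → (∀ z ∈ U, z ∉ S → χ z = 0) → dd e e = 1 →
    (∀ z ∈ Ω, Sb σ ε z ∧ Sb τ ε z ∧ Wb σ τ v₁ v₂ W G κ C₁ C z ∧ N₁ ≤ G z ∧
      M₁ * κ * G z ≤ nn (gr σ W z) ^ 2 ∧
      ∀ A B : ι → ℝ, c₀ * κ * G z * (dd A A + dd B B) ≤ Ch.TH σ τ W z A B +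
        tc σ (cf σ e W fun l z => -(c₂ * κ * G z) * e l) W z A + tc τ (cq τ W G) W z B) →
    Zone σ τ U θ v₁ v₂ W χ ((H747.SW.MA σ τ W (fun z => c₀ * κ * G z) κ₀).sm fun z => χ z ^ 2)
      (H747.SW.coA σ τ W (fun z => c₀ * κ * G z) χ η)

end row

/-- **The certificate outside the `K`-tube at a point**: `cert_in_at` plus the field
`γ = -c₂ G e` in the critical slot. -/
def RowCertOut (E ι : Type*) [NormedAddCommGroup E] [NormedSpace ℝ E] [Fintype ι] : Prop :=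
  ∀ (σ τ : Sl E ι) (u r W a : E → ℝ) (e h : ι → ℝ) (z : E) (ε g G₀ Φ₁ Φ₂ L L₁ w₀ c₂ : ℝ)
    (γ : ι → E → ℝ),
    Geo σ τ u r e h ε g z → ε ≤ 1 / 10000000 → 0 < G₀ → 1 / 2 ≤ L → L ≤ 21 / 10 → 100 ≤ r z →
    0 ≤ Φ₁ → Φ₁ ≤ w₀ * G₀ → 400 * w₀ ≤ 1 → 5000 * w₀ ^ 2 ≤ L / r z → 1000 * |L₁| ≤ L / r z →
    1000 * ε ≤ 1 → L / r z ≤ 8 * c₂ → 5 * c₂ ≤ 2 * (L / r z) →
    gr σ W z = (Φ₁ + G₀) • gr σ u z + (G₀ * L) • gr σ r z →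
    gr τ W z = (Φ₁ + G₀) • gr τ u z + (G₀ * L) • gr τ r z →
    nn (gr σ W z) + 2 * Φ₁ ≤ 2 * w₀ * G₀ → a z = G₀ → 0 < dd (gr σ W z) (gr σ W z) →
    (∀ l, γ l z = -(c₂ * G₀) * e l) → ∀ A B : ι → ℝ,
    Ch.TH σ τ W z A B = Φ₁ * Ch.TH σ τ u z A B + Φ₂ * Ch.GA σ τ u z A B ^ 2 +
      (G₀ * (Ch.TH σ τ u z A B + L * Ch.TH σ τ r z A B + L₁ * Ch.GA σ τ r z A B ^ 2)) +
      G₀ * (Ch.GA σ τ u z A B + L * Ch.GA σ τ r z A B) ^ 2 →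
    Φ₂ * Ch.GA σ τ u z A B ^ 2 + (Φ₁ + G₀) * g * (dd A A + dd B B) +
      c₂ * G₀ / 2 * dd (sU σ z A) (sU σ z A) + G₀ / 12 * dd (sU τ z B) (sU τ z B) ≤
      Ch.TH σ τ W z A B + tc σ (cf σ e W γ) W z A + tc τ (cq τ W a) W z B

end Vale.Agent.P088.R2.H660.P
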