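import Vale.Agent.P088.R2.H660.P.Slot
import Vale.Agent.P088.R2.H983.Fl.Err

/-!
# P088, stage 3: the flat pass, the field in the noncritical slot
-/

open MeasureTheory Set Filter
open scoped ContDiff Topology

noncomputable section

namespace Vale.Agent.P088.R2.H660.P

open Vale.Agent.P088.R2.H961.GW Vale.Agent.P088.R2.H644 Vale.Agent.P088.R2.H960.W
  Vale.Agent.P088.R2.H230.W Vale.Agent.P088.R2.H551.E
open Vale.Agent.P088.R2.H660.W (sA qA sd lat cp cp_sq)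

variable {E ι : Type*} [NormedAddCommGroup E] [NormedSpace ℝ E] [Fintype ι] [DecidableEq ι]
variable {τ : Sl E ι} {Ω : Set E} {θ W G χ v b : E → ℝ} {z : E} {C ε : ℝ}

/-- The data of the noncritical slot at a point. -/
structure Nc (τ : Sl E ι) (W G : E → ℝ) (C : ℝ) (z : E) : Prop where
  G1 : 1 ≤ G z
  C1 : 1 ≤ C
  w1 : ∀ i, |τ.D i W z| ≤ C * G z
  w2 : ∀ i j, |τ.D i (τ.D j W) z| ≤ C * G z
  g1 : ∀ i, |τ.D i G z| ≤ C * G z
  lo : G z ≤ nn (gr τ W z)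

omit [DecidableEq ι] in
theorem Nc.w0 (h : Nc τ W G C z) : 0 < nn (gr τ W z) := by linarith [h.G1, h.lo]

omit [DecidableEq ι] in
theorem Nc.d0 (h : Nc τ W G C z) : 0 < dd (gr τ W z) (gr τ W z) := dd_pos_of_nn h.w0

omit [DecidableEq ι] in
theorem cq_nn (h : Nc τ W G C z) : nn (fun l => cq τ W G l z) ≤ 1 := by
  have hG := h.G1
  have e := nn_cp h.d0 (a := G z) (by linarith)
  rw [cq_eq]
  have hw := h.w0
  have : nn (cp (gr τ W z) (G z)) = G z / nn (gr τ W z) := by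
    field_simp; exact e
  rw [this, div_le_one hw]
  exact h.lo

omit [DecidableEq ι] in
theorem cq_le (h : Nc τ W G C z) (l : ι) : |cq τ W G l z| ≤ 1 :=
  (abs_le_nn (fun l => cq τ W G l z) l).trans (cq_nn h)

omit [DecidableEq ι] in
theorem sdd (ok : τ.Ok Ω θ) (hW : Sm Ω W) : Sm Ω fun z => dd (gr τ W z) (gr τ W z) := by
  have e : (fun z => dd (gr τ W z) (gr τ W z)) = fun z => ∑ i, τ.D i W z * τ.D i W z := rfl
  rw [e]
  exact Sm.sum _ fun i _ => (ok.sD hW i).mul (ok.sD hW i)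

omit [DecidableEq ι] in
theorem cq_sm (ok : τ.Ok Ω θ) (hW : Sm Ω W) (hG : Sm Ω G)
    (h : ∀ z ∈ Ω, 0 < dd (gr τ W z) (gr τ W z)) (l : ι) : Sm Ω (cq τ W G l) :=
  (hG.div (sdd ok hW) fun z hz => (h z hz).ne').mul (ok.sD hW l)

omit [DecidableEq ι] in
theorem cq_D (ok : τ.Ok Ω θ) (hW : Sm Ω W) (hG : Sm Ω G)
    (h : ∀ z ∈ Ω, Nc τ W G C z) (hz : z ∈ Ω) (i l : ι) :
    |τ.D i (cq τ W G l) z| ≤ C * (2 + 2 * Fintype.card ι) := by
  have hΩ := ok.op
  have hn := h z hz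
  have hG1 := hn.G1
  have hC1 := hn.C1
  have N0 : (0:ℝ) ≤ Fintype.card ι := Nat.cast_nonneg _
  have sP := sdd ok hW
  have sc := cq_sm ok hW hG (fun z hz => (h z hz).d0) l
  obtain ⟨P, hP⟩ : ∃ P : E → ℝ, P = fun z => dd (gr τ W z) (gr τ W z) := ⟨_, rfl⟩
  rw [← hP] at sP
  have e1 : ∀ z ∈ Ω, cq τ W G l z * P z = G z * τ.D l W z := by
    intro z hz
    have := (h z hz).d0
    rw [hP]
    unfold cq
    field_simp
  have e2 : τ.D i (cq τ W G l) z * P z + cq τ W G l z * τ.D i P z =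
      τ.D i G z * τ.D l W z + G z * τ.D i (τ.D l W) z := by
    rw [← D_mul τ hΩ sc sP i hz, ← D_mul τ hΩ hG (ok.sD hW l) i hz]
    exact D_congr τ hΩ e1 i hz
  have e3 : τ.D i P z = ∑ j, 2 * (τ.D j W z * τ.D i (τ.D j W) z) := by
    have : P = fun z => ∑ j, τ.D j W z * τ.D j W z := hP
    rw [this, D_sum τ hΩ _ (fun j _ => (ok.sD hW j).mul (ok.sD hW j)) i hz]
    refine Finset.sum_congr rfl fun j _ => ?_
    rw [D_mul τ hΩ (ok.sD hW j) (ok.sD hW j) i hz]; ring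
  obtain ⟨w, hw⟩ : ∃ w, w = nn (gr τ W z) := ⟨_, rfl⟩
  have w0 : 0 < w := by rw [hw]; exact hn.w0
  have lo : G z ≤ w := by rw [hw]; exact hn.lo
  have wl : ∀ j, |τ.D j W z| ≤ w := fun j => by rw [hw]; exact abs_le_nn (gr τ W z) j
  have Pw : P z = w ^ 2 := by rw [hP, hw]; exact (nn_sq _).symm
  have b1 : |τ.D i P z| ≤ Fintype.card ι * (2 * (w * (C * G z))) := by
    rw [e3]
    refine (Finset.abs_sum_le_sum_abs _ _).trans ?_
    calc ∑ j, |2 * (τ.D j W z * τ.D i (τ.D j W) z)| ≤ ∑ _j : ι, 2 * (w * (C * G z)) := by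
          refine Finset.sum_le_sum fun j _ => ?_
          rw [abs_mul, abs_mul, abs_two]
          have := mul_le_mul (wl j) (hn.w2 i j) (abs_nonneg _) w0.le
          linarith
      _ = _ := by rw [Finset.sum_const, Finset.card_univ, nsmul_eq_mul]
  have b2 : |τ.D i G z * τ.D l W z| ≤ C * G z * w := by
    rw [abs_mul]; exact mul_le_mul (hn.g1 i) (wl l) (abs_nonneg _) (by positivity)
  have b3 : |G z * τ.D i (τ.D l W) z| ≤ G z * (C * G z) := by
    rw [abs_mul, abs_of_nonneg (by linarith : 0 ≤ G z)]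
    exact mul_le_mul_of_nonneg_left (hn.w2 i l) (by linarith)
  have c1 : |cq τ W G l z| * w ≤ G z := by
    have e := nn_cp hn.d0 (a := G z) (by linarith)
    rw [← hw, ← cq_eq] at e
    have := mul_le_mul_of_nonneg_right (abs_le_nn (fun l => cq τ W G l z) l) w0.le
    rw [e] at this
    exact this
  have b4 : |cq τ W G l z * τ.D i P z| ≤ Fintype.card ι * (2 * (G z * (C * G z))) := by
    rw [abs_mul]
    calc |cq τ W G l z| * |τ.D i P z| ≤
        |cq τ W G l z| * (Fintype.card ι * (2 * (w * (C * G z)))) :=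
          mul_le_mul_of_nonneg_left b1 (abs_nonneg _)
      _ = Fintype.card ι * (2 * ((|cq τ W G l z| * w) * (C * G z))) := by ring
      _ ≤ _ := by gcongr
  have e4 : |τ.D i (cq τ W G l) z| * w ^ 2 ≤ C * (2 + 2 * Fintype.card ι) * w ^ 2 := by
    have e5 : τ.D i (cq τ W G l) z * w ^ 2 = τ.D i G z * τ.D l W z +
        G z * τ.D i (τ.D l W) z - cq τ W G l z * τ.D i P z := by
      rw [← Pw]; linarith
    have e6 : |τ.D i (cq τ W G l) z| * w ^ 2 = |τ.D i (cq τ W G l) z * w ^ 2| := by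
      rw [abs_mul, abs_of_nonneg (sq_nonneg w)]
    rw [e6, e5]
    have a1 := abs_sub (τ.D i G z * τ.D l W z + G z * τ.D i (τ.D l W) z)
      (cq τ W G l z * τ.D i P z)
    have a2 := abs_add_le (τ.D i G z * τ.D l W z) (G z * τ.D i (τ.D l W) z)
    have g1 : G z * w ≤ w ^ 2 := by nlinarith
    have g2 : G z * G z ≤ w ^ 2 := by nlinarith
    have g3 := mul_le_mul_of_nonneg_left g1 (by linarith : 0 ≤ C)
    have g4 := mul_le_mul_of_nonneg_left g2 (by linarith : 0 ≤ C)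
    have g5 := mul_le_mul_of_nonneg_left g4 N0
    calc _ ≤ _ := a1
      _ ≤ C * G z * w + G z * (C * G z) + Fintype.card ι * (2 * (G z * (C * G z))) := by linarith
      _ ≤ _ := by linarith
  exact le_of_mul_le_mul_right e4 (by positivity)

/-- The constant of the field errors. -/
def E1 (N C : ℝ) : ℝ := N ^ 2 * (3 * (C * (2 + 2 * N)) + 1) + N

variable (hε : 20 * (Fintype.card ι * ε) ≤ 1)

include hε

theorem eC_cq [Nonempty ι] (ok : τ.Ok Ω θ) (hW : Sm Ω W) (hG : Sm Ω G)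
    (h : ∀ z ∈ Ω, Nc τ W G C z) (hz : z ∈ Ω) (sb : Sb τ ε z) (hv : v z = 0) (b : E → ℝ) :
    |eC τ (cq τ W G) v W b z| ≤ E1 (Fintype.card ι) C * ∑ i, YY τ W b i z ^ 2 := by
  have hn := h z hz
  have C1 := hn.C1
  have N0 : (0:ℝ) ≤ Fintype.card ι := Nat.cast_nonneg _
  obtain ⟨i₀⟩ := ‹Nonempty ι›
  have ε0 : 0 ≤ ε := (abs_nonneg _).trans (sb.ss i₀ i₀)
  have ε1 : ε ≤ 1 / 20 := sb.ε1 hε
  have Y0 : 0 ≤ ∑ i, YY τ W b i z ^ 2 := Finset.sum_nonneg fun i _ => sq_nonneg _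
  have h1 := eC_bd (σ := τ) (v := v) (W := W) (a := b) (z := z) (c := cq τ W G) (S := 2)
    (B := ε) (A₀ := 1) (A₁ := C * (2 + 2 * Fintype.card ι)) (fun i j => sb.s2 hε i j) sb.s1
    (fun l => by rw [sb.k1, abs_zero]; exact ε0) (fun l => by rw [sb.e1, abs_zero]; exact ε0)
    (cq_le hn) (cq_D ok hW hG h hz) (by norm_num) ε0 (by norm_num) (by positivity)
  refine h1.trans ?_
  rw [hv, zero_mul, E1]
  have h2 : (3 / 2 * 2 * (C * (2 + 2 * (Fintype.card ι : ℝ))) + (5 / 2 * 2 + 1 / 2) * ε * 1) ≤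
      3 * (C * (2 + 2 * Fintype.card ι)) + 1 := by linarith
  have h3 := mul_le_mul_of_nonneg_left h2 (sq_nonneg (Fintype.card ι : ℝ))
  have h4 := mul_le_mul_of_nonneg_right h3 Y0
  have h5 : 0 ≤ (Fintype.card ι : ℝ) * ∑ i, YY τ W b i z ^ 2 := mul_nonneg N0 Y0
  linarith

/-- The errors of the field with weight. -/
theorem fd_cq [Nonempty ι] (ok : τ.Ok Ω θ) (hW : Sm Ω W) (hG : Sm Ω G) (hχ : Sm Ω χ)
    (h : ∀ z ∈ Ω, Nc τ W G C z) (hz : z ∈ Ω) (sb : Sb τ ε z) (hv : v z = 0) (b : E → ℝ) :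
    64 * cY τ (fun i z => χ z * cq τ W G i z) W b z ^ 2 -
      8 * eC τ (fun i z => χ z * (χ z * cq τ W G i z)) v W b z ≤
    ((162 + 18 * E1 (Fintype.card ι) C) * χ z ^ 2 + 45 * nn (gr τ χ z) ^ 2) *
      (sA τ z (XX τ W b · z) + (4 * τ.F W z + 1) * b z ^ 2) := by
  have hn := h z hz
  have C1 := hn.C1
  have N0 : (0:ℝ) ≤ Fintype.card ι := Nat.cast_nonneg _
  have E0 : 0 ≤ E1 (Fintype.card ι) C := by unfold E1; positivity
  have sc : ∀ i, Sm Ω (cq τ W G i) := cq_sm ok hW hG fun z hz => (h z hz).d0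
  have e0 : (fun (i : ι) z => χ z * (χ z * cq τ W G i z)) =
      fun (i : ι) z => χ z ^ 2 * cq τ W G i z := by
    funext i z; ring
  rw [e0, H747.SW.eC_mul ok sc v W b hχ hz]
  obtain ⟨Y, hY⟩ : ∃ Y, Y = ∑ i, YY τ W b i z ^ 2 := ⟨_, rfl⟩
  have Y0 : 0 ≤ Y := by rw [hY]; exact Finset.sum_nonneg fun i _ => sq_nonneg _
  obtain ⟨y, hy⟩ : ∃ y : ι → ℝ, y = fun i => YY τ W b i z := ⟨_, rfl⟩
  have Yy : nn y ^ 2 = Y := by rw [nn_sq, dd_sq, hY, hy]
  have ny := nn_nonneg y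
  obtain ⟨c, hc⟩ : ∃ c : ι → ℝ, c = fun l => cq τ W G l z := ⟨_, rfl⟩
  have nc : nn c ≤ 1 := by rw [hc]; exact cq_nn hn
  obtain ⟨g, hg⟩ : ∃ g, g = nn (gr τ χ z) := ⟨_, rfl⟩
  have g0 : 0 ≤ g := by rw [hg]; exact nn_nonneg _
  have cY1 : |cY τ (cq τ W G) W b z| ≤ nn y := by
    have e : cY τ (cq τ W G) W b z = dd c y := by rw [hc, hy]; rfl
    rw [e]
    refine (dd_le_nn c y).trans ?_
    have := mul_le_mul_of_nonneg_right nc ny
    linarith
  have cYm : cY τ (fun i z => χ z * cq τ W G i z) W b z = χ z * cY τ (cq τ W G) W b z := by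
    unfold cY
    rw [Finset.mul_sum]
    exact Finset.sum_congr rfl fun i _ => by ring
  have t1 : cY τ (fun i z => χ z * cq τ W G i z) W b z ^ 2 ≤ χ z ^ 2 * Y := by
    rw [cYm, mul_pow]
    refine mul_le_mul_of_nonneg_left ?_ (sq_nonneg _)
    rw [← Yy, ← sq_abs]
    exact pow_le_pow_left₀ (abs_nonneg _) cY1 2
  have t2 := eC_cq hε ok hW hG h hz sb hv b
  rw [← hY] at t2
  -- the commutator with the weight
  have u1 : |∑ i, ∑ j, τ.s i j z * τ.D i χ z * YY τ W b j z| ≤ 21 / 20 * (g * nn y) := by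
    rw [hg, hy]; exact sb.bq_le hε (gr τ χ z) fun j => YY τ W b j z
  have u2 : |∑ l, cq τ W G l z * τ.D l χ z| ≤ g := by
    have e : ∑ l, cq τ W G l z * τ.D l χ z = dd c (gr τ χ z) := by rw [hc]; rfl
    rw [e]
    refine (dd_le_nn c _).trans ?_
    rw [← hg]
    have := mul_le_mul_of_nonneg_right nc g0
    linarith
  have u3 : |sYY τ W b z| ≤ 21 / 20 * Y := by
    have := sb.bq_le hε y y
    rw [← sq, Yy] at this
    rw [hy] at this
    exact this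
  have u4 : |2 * χ z * ((∑ i, ∑ j, τ.s i j z * τ.D i χ z * YY τ W b j z) *
      cY τ (cq τ W G) W b z - 1 / 2 * ((∑ l, cq τ W G l z * τ.D l χ z) * sYY τ W b z))| ≤
      2 * |χ z| * (63 / 40 * (g * Y)) := by
    rw [abs_mul, abs_mul, abs_two]
    refine mul_le_mul_of_nonneg_left ?_ (by positivity)
    refine (abs_sub _ _).trans ?_
    rw [abs_mul, abs_mul (1 / 2 : ℝ), abs_mul (∑ l, cq τ W G l z * τ.D l χ z),
      abs_of_pos (by norm_num : (0:ℝ) < 1 / 2)]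
    have a1 := mul_le_mul u1 cY1 (abs_nonneg _) (by positivity)
    have a2 := mul_le_mul u2 u3 (abs_nonneg _) g0
    have a3 : 21 / 20 * (g * nn y) * nn y = 21 / 20 * (g * Y) := by rw [← Yy]; ring
    rw [a3] at a1
    linarith
  have u5 : 2 * |χ z| * (63 / 40 * (g * Y)) ≤ (χ z ^ 2 + 5 / 2 * g ^ 2) * Y := by
    have : 2 * |χ z| * (63 / 40 * g) ≤ χ z ^ 2 + 5 / 2 * g ^ 2 := by
      have h1 := sq_nonneg (|χ z| - 63 / 40 * g)
      have h2 : |χ z| ^ 2 = χ z ^ 2 := sq_abs _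
      nlinarith [sq_nonneg g]
    have := mul_le_mul_of_nonneg_right this Y0
    linarith
  have t3 : 64 * cY τ (fun i z => χ z * cq τ W G i z) W b z ^ 2 -
      8 * (χ z ^ 2 * eC τ (cq τ W G) v W b z + 2 * χ z * ((∑ i, ∑ j, τ.s i j z *
        τ.D i χ z * YY τ W b j z) * cY τ (cq τ W G) W b z -
        1 / 2 * ((∑ l, cq τ W G l z * τ.D l χ z) * sYY τ W b z))) ≤
      ((72 + 8 * E1 (Fintype.card ι) C) * χ z ^ 2 + 20 * g ^ 2) * Y := by
    have a1 := mul_le_mul_of_nonneg_left (abs_le.1 t2).1 (sq_nonneg (χ z))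
    have a2 := (abs_le.1 (u4.trans u5)).1
    nlinarith
  refine t3.trans ?_
  -- `∑ YY²` by `sA` and `F`
  have v1 := YY_sum τ W b z
  have v2 := sb.sA_lo hε (Ch.XX τ W b z)
  have v3 := sb.F_lo hε W
  rw [nn_sq] at v3
  have v4 : Y ≤ 9 / 4 * (sA τ z (XX τ W b · z) + (4 * τ.F W z + 1) * b z ^ 2) := by
    have e1 : sA τ z (XX τ W b · z) = sA τ z (Ch.XX τ W b z) := rfl
    rw [e1, hY]
    have w1 : dd (gr τ W z) (gr τ W z) * b z ^ 2 ≤ 20 / 19 * τ.F W z * b z ^ 2 :=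
      mul_le_mul_of_nonneg_right (by linarith) (sq_nonneg _)
    have w2 := dd_self_nonneg (Ch.XX τ W b z)
    have w3 : 0 ≤ τ.F W z * b z ^ 2 := by
      have := dd_self_nonneg (gr τ W z)
      have : 0 ≤ τ.F W z := by linarith
      positivity
    have w4 := sq_nonneg (b z)
    nlinarith
  have v5 : 0 ≤ (72 + 8 * E1 (Fintype.card ι) C) * χ z ^ 2 + 20 * g ^ 2 := by positivity
  have v6 := mul_le_mul_of_nonneg_left v4 v5
  rw [hg] at v6 ⊢
  linarith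

/-- The divergence of `F c`. -/
theorem dF_cq [Nonempty ι] (ok : τ.Ok Ω θ) (hW : Sm Ω W) (hG : Sm Ω G)
    (h : ∀ z ∈ Ω, Nc τ W G C z) (hz : z ∈ Ω) (sb : Sb τ ε z) :
    |dF τ (cq τ W G) W z| ≤ Fintype.card ι ^ 2 * (2 + 4 * (Fintype.card ι * C) +
      2 * (C * (2 + 2 * Fintype.card ι))) * nn (gr τ W z) ^ 2 := by
  have hn := h z hz
  have C1 := hn.C1
  have G1 := hn.G1
  have hΩ := ok.op
  have N0 : (0:ℝ) ≤ Fintype.card ι := Nat.cast_nonneg _
  obtain ⟨i₀⟩ := ‹Nonempty ι›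
  have ε0 : 0 ≤ ε := (abs_nonneg _).trans (sb.ss i₀ i₀)
  have ε1 : ε ≤ 1 / 20 := sb.ε1 hε
  have h1 := H983.Fl.dF_le (σ := τ) (W := W) (z := z) (c := cq τ W G) (S := 2) (B := ε)
    (M := Fintype.card ι * (C * G z)) (A₀ := 1) (A₁ := C * (2 + 2 * Fintype.card ι))
    (fun i j => (ok.ss i j).diff hΩ hz) (fun i => (ok.sD hW i).diff hΩ hz)
    (fun l => (cq_sm ok hW hG (fun z hz => (h z hz).d0) l).diff hΩ hz)
    (fun i j => sb.s2 hε i j) (fun j i k => sb.s1 j i k)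
    (fun j => by rw [sb.k1, abs_zero]; exact ε0) (fun j => by
      have : H983.Fl.nn (H983.Fl.dv τ j (H983.Fl.gw τ W) z) =
        nn (fun l => τ.D j (τ.D l W) z) := rfl
      rw [this]
      refine (nn_le_l1 _).trans ?_
      calc ∑ i, |τ.D j (τ.D i W) z| ≤ ∑ _i : ι, (C * G z) :=
            Finset.sum_le_sum fun i _ => hn.w2 j i
        _ = _ := by rw [Finset.sum_const, Finset.card_univ, nsmul_eq_mul])
    (cq_le hn) (cq_D ok hW hG h hz)
  have e : H983.Fl.nn (H983.Fl.gw τ W z) = nn (gr τ W z) := rfl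
  rw [e] at h1
  obtain ⟨w, hw⟩ : ∃ w, w = nn (gr τ W z) := ⟨_, rfl⟩
  rw [← hw] at h1 ⊢
  have lo : G z ≤ w := by rw [hw]; exact hn.lo
  have w0 : 0 ≤ w := by linarith
  have g1 : G z * w ≤ w ^ 2 := by nlinarith
  have g2 : Fintype.card ι * C * (G z * w) ≤ Fintype.card ι * C * w ^ 2 :=
    mul_le_mul_of_nonneg_left g1 (by positivity)
  have g3 : ε * w ^ 2 ≤ 1 / 20 * w ^ 2 := mul_le_mul_of_nonneg_right ε1 (sq_nonneg _)
  have g4 := sq_nonneg w
  have key : (ε * w ^ 2 + 2 * 2 * (Fintype.card ι * (C * G z) * w)) * 1 +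
      2 * w ^ 2 * (C * (2 + 2 * (Fintype.card ι : ℝ))) + ε * 2 * w ^ 2 * 1 ≤
      (2 + 4 * (Fintype.card ι * C) + 2 * (C * (2 + 2 * Fintype.card ι))) * w ^ 2 := by
    nlinarith
  have := mul_le_mul_of_nonneg_left key (sq_nonneg (Fintype.card ι : ℝ))
  linarith

end Vale.Agent.P088.R2.H660.P
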