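import Vale.Agent.P088.R2.H660.P.InU
import Vale.Agent.P088.R2.H747.S.SemW3

/-!
# P088, stage 3: the flat pass, the inner zone on `Ω`
-/

open MeasureTheory Set Filter
open scoped ContDiff Topology

noncomputable section

namespace Vale.Agent.P088.R2.H660.P

open Vale.Agent.P088.R2.H961.GW Vale.Agent.P088.R2.H644 Vale.Agent.P088.R2.H960.W
  Vale.Agent.P088.R2.H230.W Vale.Agent.P088.R2.H551.E
open Vale.Agent.P088.R2.H660.W (sA qA qX lat zp tube lat_nonneg tsX1)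

variable {E ι : Type*} [NormedAddCommGroup E] [NormedSpace ℝ E] [Fintype ι] [DecidableEq ι]

/-- The coefficient of `s(X b, X b)`. -/
def mI (τ : Sl E ι) (G χ : E → ℝ) (H₁ : ℝ) (z : E) : ℝ :=
  χ z ^ 2 * (G z / 3) - (H₁ * χ z ^ 2 + 45 * dD τ χ z)

/-- The density of the inner zone. -/
def JJ (σ τ : Sl E ι) (v₁ v₂ W G χ : E → ℝ) (κ β Cz H₁ : ℝ) (a b : E → ℝ) (z : E) : ℝ :=
  χ z ^ 2 * sta σ τ v₁ v₂ W a b z + (1 / 2 * (χ z ^ 2 * σ.P v₁ W a z ^ 2) +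
    (1 / 4 * (χ z ^ 2 * τ.P v₂ W b z ^ 2) + (-1) * (χ z ^ 2 * (4 * β * κ * G z) *
      sA σ z (XX σ W a · z) + (mI τ G χ H₁ z * sA τ z (XX τ W b · z) +
      (oI σ W G χ κ Cz z * a z ^ 2 + oI' τ W G χ z * b z ^ 2)))))

section pw

variable {σ τ : Sl E ι} {U : Set E} {θ v v₁ v₂ W G χ a b a₁ b₁ : E → ℝ} {z : E}
  {κ β Cz H₁ : ℝ}

omit [DecidableEq ι] in
theorem tJJ (ok : σ.Ok U θ) (ot : τ.Ok U θ) (hv₁ : Sm U v₁) (hv₂ : Sm U v₂) (hW : Sm U W)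
    (ha : Te U a) (hb : Te U b) (hχ : Sm U χ) (c1 : Sm U fun z => χ z ^ 2 * (4 * β * κ * G z))
    (c2 : Sm U (mI τ G χ H₁)) (c3 : Sm U (oI σ W G χ κ Cz)) (c4 : Sm U (oI' τ W G χ)) :
    Te U (JJ σ τ v₁ v₂ W G χ κ β Cz H₁ a b) := by
  have hU := ok.op
  exact ((tsta ok ot hv₁ hv₂ hW ha hb).mul_left hU (hχ.pow 2)).add hU
    (((((ok.tP hv₁ hW ha).sq hU).mul_left hU (hχ.pow 2)).cmul hU _).add hU
    (((((ot.tP hv₂ hW hb).sq hU).mul_left hU (hχ.pow 2)).cmul hU _).add hU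
    ((((tsX1 ok hW ha).mul_left hU c1).add hU (((tsX1 ot hW hb).mul_left hU c2).add hU
    (((ha.sq hU).mul_left hU c3).add hU ((hb.sq hU).mul_left hU c4)))).cmul hU _)))

omit [DecidableEq ι] in
theorem JJ_loc (h : a₁ =ᶠ[𝓝 z] a) (h' : b₁ =ᶠ[𝓝 z] b) :
    JJ σ τ v₁ v₂ W G χ κ β Cz H₁ a₁ b₁ z = JJ σ τ v₁ v₂ W G χ κ β Cz H₁ a b z := by
  have e1 : sta σ τ v₁ v₂ W a₁ b₁ z = sta σ τ v₁ v₂ W a b z := H747.SW.sd_loc h h'
  have e2 : (fun i => XX σ W a₁ i z) = fun i => XX σ W a i z :=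
    funext fun i => H747.SW.XX_loc h i
  have e3 : (fun i => XX τ W b₁ i z) = fun i => XX τ W b i z :=
    funext fun i => H747.SW.XX_loc h' i
  unfold JJ
  rw [e1, e2, e3, H747.SW.P_loc h, H747.SW.P_loc h', h.eq_of_nhds, h'.eq_of_nhds]

omit [DecidableEq ι] in
theorem JJ_off (h0 : χ z = 0) (h1 : ∀ i, σ.D i χ z = 0) (h2 : ∀ i, τ.D i χ z = 0)
    (h3 : σ.Λ χ z = 0) : JJ σ τ v₁ v₂ W G χ κ β Cz H₁ a b z = 0 := by
  have e1 : dD σ χ z = 0 := by unfold dD; simp [h1]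
  have e2 : dD τ χ z = 0 := by unfold dD; simp [h2]
  unfold JJ mI oI oI'
  rw [h0, e1, e2, h3]
  ring

omit [DecidableEq ι] in
theorem eC0 (σ : Sl E ι) (v W a : E → ℝ) (z : E) :
    eC σ (fun (_ : ι) (_ : E) => (0:ℝ)) v W a z = 0 := by
  unfold eC cY; simp [D_const]

omit [DecidableEq ι] in
theorem cY0 (σ : Sl E ι) (W a : E → ℝ) (z : E) :
    cY σ (fun (_ : ι) (_ : E) => (0:ℝ)) W a z = 0 := by
  unfold cY; simp

omit [DecidableEq ι] in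
theorem dF0 (σ : Sl E ι) (W : E → ℝ) (z : E) :
    dF σ (fun (_ : ι) (_ : E) => (0:ℝ)) W z = 0 := by
  unfold dF; simp [D_const]

omit [DecidableEq ι] in
theorem Γ0 (σ : Sl E ι) (W : E → ℝ) (z : E) : σ.Γ (fun _ => (0:ℝ)) W z = 0 := by
  unfold Sl.Γ; simp [D_const]

end pw

variable [MeasureSpace E] [FiniteDimensional ℝ E] [BorelSpace E]
  [(volume : Measure E).IsAddHaarMeasure]

section integral

variable {σ τ : Sl E ι} {U Ω S : Set E} {θ v₁ v₂ W G K χ a b : E → ℝ} {h : ι → E → ℝ}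
  {κ C₁ C M₂ β ε εz Cz : ℝ}

/-- The inner zone on `Ω`. -/
theorem in_tube [Nonempty ι] (H : PZ E ι εz Cz) (ok : σ.Ok Ω θ) (ot : τ.Ok Ω θ)
    (hρ : ∀ z, σ.ρ z = 1) (hk : ∀ i z, σ.k i z = 0) (hv₁ : Sm Ω v₁) (hv₂ : Sm Ω v₂)
    (hW : Sm Ω W) (hK : Sm Ω K) (hG : Sm Ω G) (hχ : Sm Ω χ) (hh : ∀ i, Sm Ω (h i))
    (ha : Te Ω a) (hb : Te Ω b) (pin : ∀ z ∈ Ω, Pin σ τ v₁ v₂ W G K h κ C₁ C M₂ β ε εz z)
    (na : NA (Fintype.card ι) C₁ M₂ β κ C ε Cz)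
    (ng : ∀ z ∈ Ω, NG (Fintype.card ι) M₂ β κ C Cz (G z)) :
    0 ≤ In Ω θ (JJ σ τ v₁ v₂ W G χ κ β Cz (H1 (Fintype.card ι) C) a b) := by
  have hΩ := ok.op
  have hκ := na.κ0
  have hβ := na.β0
  have hn : ∀ z ∈ Ω, Nc τ W G C z := fun z hz => ⟨(pin z hz).wb.G1, na.C1, (pin z hz).wb.w1',
    (pin z hz).wb.w2', (pin z hz).wb.g1', (pin z hz).wb.lo⟩
  have ps : Psd σ Ω := fun z hz u => by
    have h1 := (pin z hz).sx.sA_lo na.ε1 u
    have h2 := dd_self_nonneg u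
    have h3 : 0 ≤ sA σ z u := by linarith
    exact h3
  have pt : Psd τ Ω := fun z hz u => by
    have h1 := (pin z hz).sy.sA_lo na.ε1 u
    have h2 := dd_self_nonneg u
    have h3 : 0 ≤ sA τ z u := by linarith
    exact h3
  have sh : ∀ i j, Sm Ω (Ph σ h i j) := fun i j => Sm.sum _ fun k _ => Sm.sum _ fun l _ =>
    ((ok.ss i k).mul (contDiffOn_const.sub ((hh k).mul (hh l)))).mul (ok.ss l j)
  have sq' : ∀ i j, Sm Ω (qI σ K χ h i j) := fun i j =>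
    ((hχ.pow 2).mul (contDiffOn_const.mul hK)).mul (sh i j)
  have sG : ∀ c : ℝ, Sm Ω fun z => χ z ^ 2 * (c * G z) := fun c =>
    (hχ.pow 2).mul (contDiffOn_const.mul hG)
  have sf : Sm Ω fun z => χ z * (16 * β * κ * G z) := hχ.mul (contDiffOn_const.mul hG)
  have shh : Sm Ω fun z => H1 (Fintype.card ι) C * χ z ^ 2 + 45 * dD τ χ z :=
    (contDiffOn_const.mul (hχ.pow 2)).add (contDiffOn_const.mul (sdD ot hχ))
  have sG4 : Sm Ω fun z => χ z ^ 2 * (G z / 4) := (hχ.pow 2).mul (hG.div_const _)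
  have sG3 : Sm Ω fun z => χ z ^ 2 * (G z / 3) := (hχ.pow 2).mul (hG.div_const _)
  have sF := ok.sG hW hW
  have sF' := ot.sG hW hW
  have sζ : Sm Ω fun z => χ z ^ 2 * (8 * ((Fintype.card ι : ℝ) - 1 + 3 / 10) * K z ^ 2 +
      κ ^ 2 / 8 * G z ^ 2 + c7 C β κ * G z) :=
    (hχ.pow 2).mul (((contDiffOn_const.mul (hK.pow 2)).add (contDiffOn_const.mul (hG.pow 2))).add
      (contDiffOn_const.mul hG))
  have sζ' : Sm Ω fun z => (H1 (Fintype.card ι) C * χ z ^ 2 + 45 * dD τ χ z) *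
      (4 * τ.F W z + 1) + χ z ^ 2 * (c8 C β κ * G z ^ 2) :=
    (shh.mul ((contDiffOn_const.mul sF').add contDiffOn_const)).add
      ((hχ.pow 2).mul (contDiffOn_const.mul (hG.pow 2)))
  have so : Sm Ω (oI σ W G χ κ Cz) :=
    ((hχ.pow 2).mul (contDiffOn_const.mul (hG.pow 2))).sub
      (((contDiffOn_const.mul (sF.mul (sdD ok hχ))).add
        ((contDiffOn_const.mul hG).mul (sdD ok hχ))).add ((ok.sL hχ).pow 2))
  have so' : Sm Ω (oI' τ W G χ) :=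
    ((hχ.pow 2).mul ((hG.mul sF').div_const _)).sub
      (contDiffOn_const.mul (sF'.mul (sdD ot hχ)))
  have sc : ∀ i, Sm Ω (cq τ W G i) := cq_sm ot hW hG fun z hz => (hn z hz).d0
  have t := tube (σ := σ) (τ := τ) (U := Ω) (θ := θ) (v₁ := v₁) (v₂ := v₂) (W := W) (a := a)
    (b := b) (χ := χ) (d := fun (_ : ι) (_ : E) => (0:ℝ))
    (d' := fun i z => χ z * cq τ W G i z) (q := qI σ K χ h)
    (f := fun z => χ z * (16 * β * κ * G z)) (ρ := fun z => χ z ^ 2 * (4 * β * κ * G z))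
    (ρ' := fun z => χ z ^ 2 * (G z / 4) - (H1 (Fintype.card ι) C * χ z ^ 2 + 45 * dD τ χ z))
    (m := fun _ => 0) (m' := fun z => 1 / 24 * (χ z ^ 2 * G z)) (g := fun _ => 0)
    (h := fun z => H1 (Fintype.card ι) C * χ z ^ 2 + 45 * dD τ χ z)
    (ζ := fun z => χ z ^ 2 * (8 * ((Fintype.card ι : ℝ) - 1 + 3 / 10) * K z ^ 2 +
      κ ^ 2 / 8 * G z ^ 2 + c7 C β κ * G z))
    (ζ' := fun z => (H1 (Fintype.card ι) C * χ z ^ 2 + 45 * dD τ χ z) *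
      (4 * τ.F W z + 1) + χ z ^ 2 * (c8 C β κ * G z ^ 2))
    (o := oI σ W G χ κ Cz) (o' := oI' τ W G χ) (κ₀ := 1 / 4) (κ₁ := 1 / 4) (s := 0)
    ok ot ps pt hv₁ hv₂ hW ha hb hχ (fun _ => contDiffOn_const) (fun i => hχ.mul (sc i)) sq'
    (fun i j z => by unfold qI; rw [Ph_sym ok.sy h i j z])
    (fun z hz u => by
      have e : ∑ i, ∑ j, qI σ K χ h i j z * u i * u j =
          χ z ^ 2 * (4 / 5 * K z) * lat (fun i => h i z) (sU σ z u) := by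
        rw [← Ph_form (ok.sy · · z) h u]
        unfold qI
        simp only [Finset.mul_sum]
        exact Finset.sum_congr rfl fun i _ => Finset.sum_congr rfl fun j _ => by ring
      rw [e]
      obtain ⟨e', b', h2⟩ := (pin z hz).h2
      have := lat_nonneg h2.hh (sU σ z u)
      have := h2.K0
      positivity)
    sf (sG _) (sG4.sub shh) contDiffOn_const (contDiffOn_const.mul ((hχ.pow 2).mul hG))
    contDiffOn_const shh sζ sζ' so so' (fun _ _ => le_rfl)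
    (fun z hz => by have := (pin z hz).wb.G1; positivity) (by norm_num) (by norm_num)
    (by norm_num)
    (fun z hz => by
      have e : (fun (i : ι) z => χ z * (fun (_ : ι) (_ : E) => (0:ℝ)) i z) =
        fun (_ : ι) (_ : E) => (0:ℝ) := by funext i z; ring
      rw [e, eC0, cY0]
      norm_num)
    (fun z hz => by
      have := fd_cq (ε := ε) na.ε1 ot hW hG hχ hn hz (pin z hz).sy (pin z hz).wb.v2 b
      rw [← dD_nn] at this
      have e : (16:ℝ) / (1 / 4) = 64 := by norm_num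
      rw [e]
      exact this)
    (fun z hz A B x y => cert_T (pin z hz) hκ hβ na.ε1 A B x y)
    (fun z hz => by
      have e : (fun (i : ι) z => χ z * (fun (_ : ι) (_ : E) => (0:ℝ)) i z) =
        fun (_ : ι) (_ : E) => (0:ℝ) := by funext i z; ring
      have := zz_T H ok hρ hk hW hK hG hχ hh hz (pin z hz) na (ng z hz)
      rw [e, dF0, Γ0]
      refine this.trans (le_of_eq ?_)
      ring)
    (fun z hz => zz_T' ot hW hG hχ hn hz (pin z hz).sy na (ng z hz))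
  have f0 : Te Ω fun z => χ z ^ 2 * sta σ τ v₁ v₂ W a b z :=
    (tsta ok ot hv₁ hv₂ hW ha hb).mul_left hΩ (hχ.pow 2)
  have f1 : Te Ω fun z => χ z ^ 2 * σ.P v₁ W a z ^ 2 :=
    ((ok.tP hv₁ hW ha).sq hΩ).mul_left hΩ (hχ.pow 2)
  have f2 : Te Ω fun z => χ z ^ 2 * τ.P v₂ W b z ^ 2 :=
    ((ot.tP hv₂ hW hb).sq hΩ).mul_left hΩ (hχ.pow 2)
  have f3 : Te Ω fun z => χ z ^ 2 * (4 * β * κ * G z) * sA σ z (XX σ W a · z) :=
    (tsX1 ok hW ha).mul_left hΩ (sG _)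
  have f4 : Te Ω fun z => mI τ G χ (H1 (Fintype.card ι) C) z * sA τ z (XX τ W b · z) :=
    (tsX1 ot hW hb).mul_left hΩ (sG3.sub shh)
  have f5 : Te Ω fun z => oI σ W G χ κ Cz z * a z ^ 2 := (ha.sq hΩ).mul_left hΩ so
  have f6 : Te Ω fun z => oI' τ W G χ z * b z ^ 2 := (hb.sq hΩ).mul_left hΩ so'
  have e3 : In Ω θ (fun z => ((0:ℝ) + χ z ^ 2 * (4 * β * κ * G z)) * sA σ z (XX σ W a · z)) =
      In Ω θ (fun z => χ z ^ 2 * (4 * β * κ * G z) * sA σ z (XX σ W a · z)) :=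
    In_congr hΩ fun z _ => by ring
  have e4 : In Ω θ (fun z => (2 * (1 / 24 * (χ z ^ 2 * G z)) + (χ z ^ 2 * (G z / 4) -
      (H1 (Fintype.card ι) C * χ z ^ 2 + 45 * dD τ χ z))) * sA τ z (XX τ W b · z)) =
      In Ω θ (fun z => mI τ G χ (H1 (Fintype.card ι) C) z * sA τ z (XX τ W b · z)) :=
    In_congr hΩ fun z _ => by unfold mI; ring
  have e5 : In Ω θ (fun z => χ z ^ 2 * H660.W.sd σ τ v₁ v₂ W a b z) =
      In Ω θ (fun z => χ z ^ 2 * sta σ τ v₁ v₂ W a b z) := rfl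
  rw [e3, e4, e5] at t
  unfold JJ
  rw [In_add hΩ ok.ts f0 ((f1.cmul hΩ _).add hΩ ((f2.cmul hΩ _).add hΩ
      ((f3.add hΩ (f4.add hΩ (f5.add hΩ f6))).cmul hΩ _))),
    In_add hΩ ok.ts (f1.cmul hΩ _) ((f2.cmul hΩ _).add hΩ
      ((f3.add hΩ (f4.add hΩ (f5.add hΩ f6))).cmul hΩ _)),
    In_add hΩ ok.ts (f2.cmul hΩ _) ((f3.add hΩ (f4.add hΩ (f5.add hΩ f6))).cmul hΩ _),
    In_cmul, In_cmul, In_cmul, In_add hΩ ok.ts f3 (f4.add hΩ (f5.add hΩ f6)),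
    In_add hΩ ok.ts f4 (f5.add hΩ f6), In_add hΩ ok.ts f5 f6]
  linarith

end integral

end Vale.Agent.P088.R2.H660.P
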