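import Vale.Agent.P088.R2.H660.P.Fld

/-!
# P088, stage 3: the flat pass, inner zone, pointwise inequalities
-/

open MeasureTheory Set Filter
open scoped ContDiff Topology

noncomputable section

namespace Vale.Agent.P088.R2.H660.P

open Vale.Agent.P088.R2.H961.GW Vale.Agent.P088.R2.H644 Vale.Agent.P088.R2.H960.W
  Vale.Agent.P088.R2.H230.W Vale.Agent.P088.R2.H551.E
open Vale.Agent.P088.R2.H660.W (sA qA sd lat zp)

variable {E ι : Type*} [NormedAddCommGroup E] [NormedSpace ℝ E] [Fintype ι] [DecidableEq ι]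

/-- The data of the inner zone at a point. -/
structure Pin (σ τ : Sl E ι) (v₁ v₂ W G K : E → ℝ) (h : ι → E → ℝ)
    (κ C₁ C M₂ β ε εz : ℝ) (z : E) : Prop where
  sx : Sb σ ε z
  sy : Sb τ ε z
  wb : Wb σ τ v₁ v₂ W G κ C₁ C z
  g2 : ∀ i j, |σ.D i (σ.D j G) z| ≤ C * G z
  F2 : nn (gr σ W z) ^ 2 ≤ M₂ * κ * G z
  K1 : κ * G z ≤ K z
  K2 : K z ≤ 9 / 4 * κ * G z
  dK : ∀ i, |σ.D i K z| ≤ C * K z
  dh : ∀ i j, |σ.D i (h j) z| ≤ C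
  h2 : ∃ (e : ι → ℝ) (b : ℝ), H2 σ W e (fun i => h i z) (K z) b εz z
  G2 : Ch.G2 σ W z ≤ ((Fintype.card ι : ℝ) - 1 + 3 / 10) * K z ^ 2
  ct : ∀ A B : ι → ℝ, 4 / 5 * K z * lat (fun i => h i z) (sU σ z A) -
    β * κ * G z * dd (sU σ z A) (sU σ z A) + G z / 12 * dd (sU τ z B) (sU τ z B) ≤
    Ch.TH σ τ W z A B + tc τ (cq τ W G) W z B

variable {σ τ : Sl E ι} {v₁ v₂ W G K : E → ℝ} {h : ι → E → ℝ}
  {κ C₁ C M₂ β ε εz : ℝ} {z : E}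

/-- The constant of the `x²` error. -/
def c7 (C β κ : ℝ) : ℝ := C ^ 2 / (3 * (β * κ)) + 4 * C ^ 2 + C

/-- The constant of the `y²` error. -/
def c8 (C β κ : ℝ) : ℝ := 2 * C ^ 2 / κ ^ 2 + c7 C β κ

private lemma cross {C G x y a t : ℝ} (hG : 0 ≤ G) (ht : 0 < t) :
    C * G * ((|x| + |y|) * a) ≤ t * G * a ^ 2 + C ^ 2 / (2 * t) * G * (x ^ 2 + y ^ 2) := by
  have h1 : C * ((|x| + |y|) * a) ≤ t * a ^ 2 + C ^ 2 / (2 * t) * (x ^ 2 + y ^ 2) := by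
    have e1 : C ^ 2 / (2 * t) * (x ^ 2 + y ^ 2) = C ^ 2 * (x ^ 2 + y ^ 2) / (2 * t) := by ring
    have e2 : (|x| + |y|) ^ 2 ≤ 2 * (x ^ 2 + y ^ 2) := by
      rw [← sq_abs x, ← sq_abs y]; nlinarith [sq_nonneg (|x| - |y|)]
    have e3 : C ^ 2 * (|x| + |y|) ^ 2 / (4 * t) ≤ C ^ 2 * (x ^ 2 + y ^ 2) / (2 * t) := by
      rw [div_le_div_iff₀ (by positivity) (by positivity)]
      have := mul_le_mul_of_nonneg_left e2 (sq_nonneg C)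
      nlinarith
    have e4 : C * ((|x| + |y|) * a) ≤ t * a ^ 2 + C ^ 2 * (|x| + |y|) ^ 2 / (4 * t) := by
      have : t * a ^ 2 + C ^ 2 * (|x| + |y|) ^ 2 / (4 * t) - C * ((|x| + |y|) * a) =
          (2 * t * a - C * (|x| + |y|)) ^ 2 / (4 * t) := by field_simp; ring
      have h0 : 0 ≤ (2 * t * a - C * (|x| + |y|)) ^ 2 / (4 * t) := by positivity
      linarith
    rw [e1]; linarith
  have := mul_le_mul_of_nonneg_left h1 hG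
  linarith

private lemma xy_le {C G κ x y : ℝ} (hκ : 0 < κ) : C * G ^ 2 * (|x| * |y|) ≤
    κ ^ 2 / 8 * G ^ 2 * x ^ 2 + 2 * C ^ 2 / κ ^ 2 * G ^ 2 * y ^ 2 := by
  have h1 : C * (|x| * |y|) ≤ κ ^ 2 / 8 * x ^ 2 + 2 * C ^ 2 / κ ^ 2 * y ^ 2 := by
    have : κ ^ 2 / 8 * x ^ 2 + 2 * C ^ 2 / κ ^ 2 * y ^ 2 - C * (|x| * |y|) =
        (κ ^ 2 * |x| - 4 * C * |y|) ^ 2 / (8 * κ ^ 2) := by
      rw [← sq_abs x, ← sq_abs y]; field_simp; ring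
    have h0 : 0 ≤ (κ ^ 2 * |x| - 4 * C * |y|) ^ 2 / (8 * κ ^ 2) := by positivity
    linarith
  have := mul_le_mul_of_nonneg_left h1 (sq_nonneg G)
  linarith

private lemma cross1 {C G x y a β κ : ℝ} (hG : 0 ≤ G) (h : 0 < β * κ) :
    C * G * ((|x| + |y|) * a) ≤
      9 / 5 * (β * κ) * G * a ^ 2 + C ^ 2 / (3 * (β * κ)) * (G * (x ^ 2 + y ^ 2)) := by
  have c1 := cross (C := C) (a := a) (x := x) (y := y) hG (t := 9 / 5 * (β * κ)) (by positivity)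
  have d1 : C ^ 2 / (2 * (9 / 5 * (β * κ))) ≤ C ^ 2 / (3 * (β * κ)) := by
    rw [div_le_div_iff₀ (by positivity) (by positivity)]
    have : 0 ≤ C ^ 2 * (β * κ) := by positivity
    nlinarith
  have gxy : 0 ≤ G * (x ^ 2 + y ^ 2) := by positivity
  have d3 := mul_le_mul_of_nonneg_right d1 gxy
  linarith only [c1, d3]

private lemma cross2 {C G x y a : ℝ} (hG : 0 ≤ G) :
    C * G * ((|x| + |y|) * a) ≤
      4 / 25 * G * a ^ 2 + 4 * C ^ 2 * (G * (x ^ 2 + y ^ 2)) := by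
  have c1 := cross (C := C) (a := a) (x := x) (y := y) hG (t := 4 / 25) (by positivity)
  have d1 : C ^ 2 / (2 * (4 / 25)) ≤ 4 * C ^ 2 := by
    rw [div_le_iff₀ (by norm_num)]; nlinarith [sq_nonneg C]
  have gxy : 0 ≤ G * (x ^ 2 + y ^ 2) := by positivity
  have d3 := mul_le_mul_of_nonneg_right d1 gxy
  linarith only [c1, d3]

private lemma c78 {C G β κ y : ℝ} (h : 0 < β * κ) (hG : 1 ≤ G) :
    C * (G ^ 2 * y ^ 2) + (C ^ 2 / (3 * (β * κ)) + 4 * C ^ 2) * (G * y ^ 2) ≤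
      c7 C β κ * (G ^ 2 * y ^ 2) := by
  have GG : G ≤ G ^ 2 := by nlinarith
  have h1 : 0 ≤ C ^ 2 / (3 * (β * κ)) + 4 * C ^ 2 := by positivity
  have h2 := mul_le_mul_of_nonneg_left (mul_le_mul_of_nonneg_right GG (sq_nonneg y)) h1
  unfold c7
  linarith only [h2]

private lemma cert_fin {C G κ β K lat sx sy U V a b x y X G2 n₂ q T t P P₃ c c' : ℝ}
    (G0 : 0 ≤ G) (p1 : 0 ≤ β * κ * G) (hG2 : G2 ≤ n₂ * K ^ 2)
    (sx1 : 19 / 20 * a ^ 2 ≤ sx) (sy1 : sy ≤ 21 / 20 * b ^ 2) (U1 : U ≤ 6 / 5 * a ^ 2)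
    (V1 : 9 / 10 * b ^ 2 ≤ V)
    (ct : 4 / 5 * K * lat - β * κ * G * U + G / 12 * V ≤ T + t)
    (q1 : -(C * G * (X * (a + b)) + C * G ^ 2 * (|x| * |y| + y ^ 2) +
      C * G * x ^ 2) ≤ q + 8 * (G2 * x ^ 2))
    (c1 : C * G * (X * a) ≤ 9 / 5 * (β * κ) * G * a ^ 2 + P * (G * (x ^ 2 + y ^ 2)))
    (c2 : C * G * (X * b) ≤ 4 / 25 * G * b ^ 2 + 4 * C ^ 2 * (G * (x ^ 2 + y ^ 2)))
    (c3 : C * G ^ 2 * (|x| * |y|) ≤ κ ^ 2 / 8 * G ^ 2 * x ^ 2 + P₃ * G ^ 2 * y ^ 2)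
    (d6 : C * (G ^ 2 * y ^ 2) + (P + 4 * C ^ 2) * (G * y ^ 2) ≤ c * (G ^ 2 * y ^ 2))
    (d7 : c = P + 4 * C ^ 2 + C) (d8 : c' = P₃ + c) :
    8 * (4 / 5 * K * lat) + (16 * β * κ / 4 * G - 16 * β * κ * G) * sx +
      (G / 6 + G / 4) * sy - (8 * n₂ * K ^ 2 + κ ^ 2 / 8 * G ^ 2 + c * G) * x ^ 2 -
      c' * G ^ 2 * y ^ 2 ≤ 8 * T + q + 8 * t := by
  have g2 := mul_le_mul_of_nonneg_right hG2 (sq_nonneg x)
  have s1 := mul_le_mul_of_nonneg_left sx1 p1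
  have s2 := mul_le_mul_of_nonneg_left U1 p1
  have s3 := mul_le_mul_of_nonneg_left sy1 G0
  have s4 := mul_le_mul_of_nonneg_left V1 G0
  have a0 : 0 ≤ β * κ * G * a ^ 2 := mul_nonneg p1 (sq_nonneg a)
  have b0 : 0 ≤ G * b ^ 2 := mul_nonneg G0 (sq_nonneg b)
  have e7 : c * G * x ^ 2 = (P + 4 * C ^ 2) * (G * x ^ 2) + C * G * x ^ 2 := by rw [d7]; ring
  have e8 : c' * G ^ 2 * y ^ 2 = P₃ * G ^ 2 * y ^ 2 + c * (G ^ 2 * y ^ 2) := by rw [d8]; ring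
  linarith only [q1, c1, c2, c3, g2, s1, s2, s3, s4, a0, b0, d6, e7, e8, ct]

private lemma cert_num {C G κ β K lat sx sy U V a b x y G2 n₂ q T t : ℝ} (hG : 1 ≤ G)
    (hκ : 0 < κ) (hβ : 0 < β) (hG2 : G2 ≤ n₂ * K ^ 2)
    (sx1 : 19 / 20 * a ^ 2 ≤ sx) (sy1 : sy ≤ 21 / 20 * b ^ 2) (U1 : U ≤ 6 / 5 * a ^ 2)
    (V1 : 9 / 10 * b ^ 2 ≤ V)
    (ct : 4 / 5 * K * lat - β * κ * G * U + G / 12 * V ≤ T + t)
    (hq : |q + 8 * (G2 * x ^ 2)| ≤ C * G * ((|x| + |y|) * (a + b)) +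
      C * G ^ 2 * (|x| * |y| + y ^ 2) + C * G * x ^ 2) :
    8 * (4 / 5 * K * lat) + (16 * β * κ / 4 * G - 16 * β * κ * G) * sx +
      (G / 6 + G / 4) * sy - (8 * n₂ * K ^ 2 + κ ^ 2 / 8 * G ^ 2 + c7 C β κ * G) * x ^ 2 -
      c8 C β κ * G ^ 2 * y ^ 2 ≤ 8 * T + q + 8 * t := by
  have hβκ : 0 < β * κ := mul_pos hβ hκ
  have G0 : 0 ≤ G := by linarith
  exact cert_fin G0 (by positivity) hG2 sx1 sy1 U1 V1 ct (abs_le.1 hq).1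
    (cross1 G0 hβκ) (cross2 G0) (xy_le hκ) (c78 hβκ hG) rfl rfl

/-- The pointwise certificate of the inner zone (without the weight). -/
theorem cert_in (p : Pin σ τ v₁ v₂ W G K h κ C₁ C M₂ β ε εz z) (hκ : 0 < κ) (hβ : 0 < β)
    (hε : 20 * (Fintype.card ι * ε) ≤ 1) (A B : ι → ℝ) (x y : ℝ) :
    8 * (4 / 5 * K z * lat (fun i => h i z) (sU σ z A)) +
      (16 * β * κ / 4 * G z - 16 * β * κ * G z) * sA σ z A +
      (G z / 6 + G z / 4) * sA τ z B -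
      (8 * ((Fintype.card ι : ℝ) - 1 + 3 / 10) * K z ^ 2 + κ ^ 2 / 8 * G z ^ 2 +
        c7 C β κ * G z) * x ^ 2 - c8 C β κ * G z ^ 2 * y ^ 2 ≤
      8 * Ch.TH σ τ W z A B + H747.SW.qf σ τ v₁ v₂ W z A B x y +
        8 * tc τ (cq τ W G) W z B := by
  have s1 := p.sx.sA_lo hε A
  have s2 := p.sy.sA_up hε B
  have s3 := p.sx.sU_up hε A
  have s4 := p.sy.sU_lo hε B
  rw [← nn_sq A] at s1 s3
  rw [← nn_sq B] at s2 s4
  exact cert_num p.wb.G1 hκ hβ p.G2 s1 s2 s3 s4 (p.ct A B) (p.wb.qf A B x y)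

end Vale.Agent.P088.R2.H660.P
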