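import Vale.Agent.P088.R2.H660.P.InZ
import Vale.Agent.P088.R2.H747.S.Zn

/-!
# P088, stage 3: the flat pass, inner zone, the tube lemma applied
-/

open MeasureTheory Set Filter
open scoped ContDiff Topology

noncomputable section

namespace Vale.Agent.P088.R2.H660.P

open Vale.Agent.P088.R2.H961.GW Vale.Agent.P088.R2.H644 Vale.Agent.P088.R2.H960.W
  Vale.Agent.P088.R2.H230.W Vale.Agent.P088.R2.H551.E
open Vale.Agent.P088.R2.H660.W (sA qA qX sd lat zp tube)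

variable {E ι : Type*} [NormedAddCommGroup E] [NormedSpace ℝ E] [Fintype ι] [DecidableEq ι]

/-- The square of the gradient. -/
def dD (σ : Sl E ι) (χ : E → ℝ) (z : E) : ℝ := ∑ i, σ.D i χ z ^ 2

omit [DecidableEq ι] in
theorem dD_nn (σ : Sl E ι) (χ : E → ℝ) (z : E) : dD σ χ z = nn (gr σ χ z) ^ 2 := by
  rw [nn_sq, dd_sq]; rfl

omit [DecidableEq ι] in
theorem sdD {σ : Sl E ι} {U : Set E} {θ χ : E → ℝ} (ok : σ.Ok U θ) (hχ : Sm U χ) :
    Sm U (dD σ χ) := ContDiffOn.sum fun i _ => (ok.sD hχ i).pow 2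

section pw

variable {σ τ : Sl E ι} {Ω : Set E} {θ v₁ v₂ W G K χ b : E → ℝ} {h : ι → E → ℝ} {z : E}
  {κ C₁ C M₂ β ε εz Cz : ℝ}

omit [DecidableEq ι] in
theorem L_chi (ok : σ.Ok Ω θ) (hχ : Sm Ω χ) (hG : Sm Ω G) (c : ℝ) (hz : z ∈ Ω) :
    σ.Λ (fun z => χ z * (χ z * (c * G z))) z = c * (χ z ^ 2 * σ.Λ G z +
      2 * G z * χ z * σ.Λ χ z + 2 * G z * σ.Γ χ χ z + 4 * χ z * σ.Γ χ G z) := by
  have sG : Sm Ω fun z => c * G z := contDiffOn_const.mul hG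
  rw [L_mul ok hχ (hχ.mul sG) hz, L_mul ok hχ sG hz, L_cmul ok c hG hz, G_mul ok χ hχ sG hz,
    G_cmul ok χ c hG hz]
  ring

omit [DecidableEq ι] in
theorem G_chi (ok : σ.Ok Ω θ) (W : E → ℝ) (hχ : Sm Ω χ) (hG : Sm Ω G) (c : ℝ) (hz : z ∈ Ω) :
    σ.Γ (fun z => c * (χ z ^ 2 * G z)) W z = c * (2 * χ z * G z * σ.Γ χ W z +
      χ z ^ 2 * σ.Γ G W z) := by
  rw [G_comm ok _ W, G_cmul ok W c ((hχ.pow 2).mul hG) hz, G_mul ok W (hχ.pow 2) hG hz,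
    G_sq ok W hχ hz, G_comm ok W χ, G_comm ok W G]
  ring

/-- The form of the zero point energy. -/
def qI (σ : Sl E ι) (K χ : E → ℝ) (h : ι → E → ℝ) (i j : ι) (z : E) : ℝ :=
  χ z ^ 2 * (4 / 5 * K z) * Ph σ h i j z

/-- The gain and the cost in front of `a²`. -/
def oI (σ : Sl E ι) (W G χ : E → ℝ) (κ Cz : ℝ) (z : E) : ℝ :=
  χ z ^ 2 * (4 * κ ^ 2 * G z ^ 2) -
    (21900 * Cz ^ 2 * (σ.F W z * dD σ χ z) + κ * G z * dD σ χ z + σ.Λ χ z ^ 2)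

/-- The gain and the cost in front of `b²`. -/
def oI' (τ : Sl E ι) (W G χ : E → ℝ) (z : E) : ℝ :=
  χ z ^ 2 * (G z * τ.F W z / 24) - 310 * (τ.F W z * dD τ χ z)

/-- The pointwise certificate in the form of the tube lemma. -/
theorem cert_T (p : Pin σ τ v₁ v₂ W G K h κ C₁ C M₂ β ε εz z) (hκ : 0 < κ) (hβ : 0 < β)
    (hε : 20 * (Fintype.card ι * ε) ≤ 1) {H₁ : ℝ} (A B : ι → ℝ) (x y : ℝ) :
    8 * qA (qI σ K χ h) z A + (4 * (0:ℝ) + χ z ^ 2 * (4 * β * κ * G z) + 0 -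
        χ z * (χ z * (16 * β * κ * G z))) * sA σ z A +
        (4 * (1 / 24 * (χ z ^ 2 * G z)) + (χ z ^ 2 * (G z / 4) - (H₁ * χ z ^ 2 + 45 * dD τ χ z)) +
          (H₁ * χ z ^ 2 + 45 * dD τ χ z)) * sA τ z B +
        (0 * (4 * σ.F W z + 1) - χ z ^ 2 * (8 * ((Fintype.card ι : ℝ) - 1 + 3 / 10) * K z ^ 2 +
          κ ^ 2 / 8 * G z ^ 2 + c7 C β κ * G z)) * x ^ 2 +
        ((H₁ * χ z ^ 2 + 45 * dD τ χ z) * (4 * τ.F W z + 1) -
          ((H₁ * χ z ^ 2 + 45 * dD τ χ z) * (4 * τ.F W z + 1) +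
            χ z ^ 2 * (c8 C β κ * G z ^ 2))) * y ^ 2 ≤
      χ z ^ 2 * (8 * Ch.TH σ τ W z A B + H747.S.qf σ τ v₁ v₂ W z A B x y) +
        8 * (tc σ (fun i z => χ z * (fun (_ : ι) (_ : E) => (0:ℝ)) i z) W z A +
          tc τ (fun i z => χ z * (χ z * cq τ W G i z)) W z B) := by
  have h0 := mul_le_mul_of_nonneg_left (cert_in p hκ hβ hε A B x y) (sq_nonneg (χ z))
  have e1 : qA (qI σ K χ h) z A = χ z ^ 2 * (4 / 5 * K z * lat (fun i => h i z) (sU σ z A)) := by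
    rw [← Ph_form p.sx.sy h A]
    unfold qA qI
    simp only [Finset.mul_sum]
    exact Finset.sum_congr rfl fun i _ => Finset.sum_congr rfl fun j _ => by ring
  have e2 : tc σ (fun i z => χ z * (fun (_ : ι) (_ : E) => (0:ℝ)) i z) W z A = 0 := by
    unfold tc; simp
  have e3 : tc τ (fun i z => χ z * (χ z * cq τ W G i z)) W z B =
      χ z ^ 2 * tc τ (cq τ W G) W z B := by
    unfold tc
    have a1 : ∑ l, χ z * (χ z * cq τ W G l z) * τ.D l W z =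
        χ z ^ 2 * ∑ l, cq τ W G l z * τ.D l W z := by
      rw [Finset.mul_sum]; exact Finset.sum_congr rfl fun l _ => by ring
    have a2 : ∑ l, χ z * (χ z * cq τ W G l z) * B l =
        χ z ^ 2 * ∑ l, cq τ W G l z * B l := by
      rw [Finset.mul_sum]; exact Finset.sum_congr rfl fun l _ => by ring
    rw [a1, a2]; ring
  have e4 : H747.S.qf σ τ v₁ v₂ W z A B x y = H747.SW.qf σ τ v₁ v₂ W z A B x y := rfl
  rw [e1, e2, e3, e4]
  linarith only [h0]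

end pw

end Vale.Agent.P088.R2.H660.P
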