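import Vale.Agent.P088.R2.H660.P.InT

/-!
# P088, stage 3: the flat pass, inner zone, the scalar inequalities at a point
-/

open MeasureTheory Set Filter
open scoped ContDiff Topology

noncomputable section

namespace Vale.Agent.P088.R2.H660.P

open Vale.Agent.P088.R2.H961.GW Vale.Agent.P088.R2.H644 Vale.Agent.P088.R2.H960.W
  Vale.Agent.P088.R2.H230.W Vale.Agent.P088.R2.H551.E
open Vale.Agent.P088.R2.H660.W (sA qA qX sd lat zp tube)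

variable {E ι : Type*} [NormedAddCommGroup E] [NormedSpace ℝ E] [Fintype ι] [DecidableEq ι]

/-- The body of `RowPZP`. -/
def PZ (E ι : Type*) [NormedAddCommGroup E] [NormedSpace ℝ E] [Fintype ι] [DecidableEq ι]
    (ε C : ℝ) : Prop :=
  ∀ (σ : Sl E ι) (U : Set E) (θ W K ϑ : E → ℝ) (h : ι → E → ℝ)
    (e : ι → ℝ) (b w₁ κ₁ η₁ t₁ : ℝ) (z : E),
    σ.Ok U θ → (∀ z, σ.ρ z = 1) → (∀ i z, σ.k i z = 0) → Sm U W → Sm U K → Sm U ϑ →
    (∀ i, Sm U (h i)) → z ∈ U → 0 ≤ ϑ z → H2 σ W e (fun i => h i z) (K z) b ε z →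
    (∀ i, |σ.D i W z| ≤ w₁) → (∀ i, |σ.D i K z| ≤ κ₁ * K z) →
    (∀ i j, |σ.D i (h j) z| ≤ η₁) → (∀ l i j, |σ.D l (σ.s i j) z| ≤ η₁) →
    (∀ i, |σ.D i ϑ z| ≤ t₁) →
    ϑ z * (4 / 5 * ((Fintype.card ι : ℝ) - 1 - 1 / 50) * K z ^ 2) -
      C * (ϑ z * ((κ₁ + η₁) * K z * w₁) + t₁ * K z * w₁) ≤
      zp σ (fun i j z => ϑ z * (4 / 5 * K z) * Ph σ h i j z) W z

/-- The constant of the divergence. -/
def D1 (N C : ℝ) : ℝ := N ^ 2 * (2 + 4 * (N * C) + 2 * (C * (2 + 2 * N)))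

/-- The constant of the field errors. -/
def H1 (N C : ℝ) : ℝ := 162 + 18 * E1 N C

/-- The conditions on the numbers which do not contain `G`. -/
structure NA (N C₁ M₂ β κ C ε Cz : ℝ) : Prop where
  N3 : 3 ≤ N
  C₁1 : 1 ≤ C₁
  C1 : 1 ≤ C
  M1 : 1 ≤ M₂
  β0 : 0 < β
  β1 : 64 * β * (21 / 10 * M₂ + 3 * N ^ 2 * C₁) ≤ 1
  κ0 : 0 < κ
  κ1 : κ ≤ 1
  ε1 : 20 * (N * ε) ≤ 1
  Cz0 : 0 < Cz

/-- The lower bounds of `G`. -/
structure NG (N M₂ β κ C Cz G : ℝ) : Prop where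
  g0 : M₂ ≤ κ * G
  g2 : 384 * β * N ^ 2 * C ≤ κ * G
  g3 : 16 * c7 C β κ ≤ κ ^ 2 * G
  g4 : 9 * (N * C) ^ 2 ≤ κ * G
  g5 : M₂ * (1152 * Cz * C) ^ 2 ≤ κ * G
  g6 : 24 * (2 * (N ^ 2 * C + N * C + 16 * D1 N C + 5 + c8 C β κ) + 6 * H1 N C) ≤ G

variable {σ τ : Sl E ι} {Ω : Set E} {θ v₁ v₂ W G K χ b : E → ℝ} {h : ι → E → ℝ} {z : E}
  {κ C₁ C M₂ β ε εz Cz : ℝ}

theorem NA.β64 {N : ℝ} (a : NA N C₁ M₂ β κ C ε Cz) : 64 * β ≤ 1 := by
  have h0 := a.β0; have h1 := a.β1; have h2 := a.M1; have h3 := a.C₁1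
  have h4 : 0 ≤ 3 * N ^ 2 * C₁ := by positivity
  have h5 : 64 * β * 1 ≤ 64 * β * (21 / 10 * M₂ + 3 * N ^ 2 * C₁) :=
    mul_le_mul_of_nonneg_left (by linarith) (by positivity)
  linarith

theorem c7_nn {C β κ : ℝ} (hC : 0 ≤ C) (h : 0 < β * κ) : 0 ≤ c7 C β κ := by
  unfold c7; positivity

theorem c8_nn {C β κ : ℝ} (hC : 0 ≤ C) (h : 0 < β * κ) : 0 ≤ c8 C β κ := by
  have := c7_nn hC h
  unfold c8; positivity

theorem E1_nn {N C : ℝ} (hN : 0 ≤ N) (hC : 0 ≤ C) : 0 ≤ E1 N C := by unfold E1; positivity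

theorem H1_nn {N C : ℝ} (hN : 0 ≤ N) (hC : 0 ≤ C) : 0 ≤ H1 N C := by
  have := E1_nn hN hC
  unfold H1; positivity

theorem D1_nn {N C : ℝ} (hN : 0 ≤ N) (hC : 0 ≤ C) : 0 ≤ D1 N C := by unfold D1; positivity

omit [DecidableEq ι] in
theorem nn_le_card (A : ι → ℝ) {b : ℝ} (h : ∀ i, |A i| ≤ b) : nn A ≤ Fintype.card ι * b := by
  refine (nn_le_l1 _).trans ?_
  calc ∑ i, |A i| ≤ ∑ _i : ι, b := Finset.sum_le_sum fun i _ => h i
    _ = _ := by rw [Finset.sum_const, Finset.card_univ, nsmul_eq_mul]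

/-- The first scalar inequality at a point. -/
theorem zz_T [Nonempty ι] (H : PZ E ι εz Cz) (ok : σ.Ok Ω θ) (hρ : ∀ z, σ.ρ z = 1)
    (hk : ∀ i z, σ.k i z = 0) (hW : Sm Ω W) (hK : Sm Ω K) (hG : Sm Ω G) (hχ : Sm Ω χ)
    (hh : ∀ i, Sm Ω (h i)) (hz : z ∈ Ω) (p : Pin σ τ v₁ v₂ W G K h κ C₁ C M₂ β ε εz z)
    (a : NA (Fintype.card ι) C₁ M₂ β κ C ε Cz) (g : NG (Fintype.card ι) M₂ β κ C Cz (G z)) :
    oI σ W G χ κ Cz z + χ z ^ 2 * (8 * ((Fintype.card ι : ℝ) - 1 + 3 / 10) * K z ^ 2 +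
          κ ^ 2 / 8 * G z ^ 2 + c7 C β κ * G z) +
      (χ z * (χ z * (16 * β * κ * G z)) * (2 * σ.F W z + v₁ z + σ.Λ W z) +
        1 / 2 * σ.Λ (fun z => χ z * (χ z * (16 * β * κ * G z))) z +
        1 / (4 * (1 / 4)) * (χ z * (16 * β * κ * G z)) ^ 2) ≤
      16 * (1 - 0) * zp σ (qI σ K χ h) W z := by
  have hN := a.N3; have hC := a.C1; have hC₁ := a.C₁1; have hκ := a.κ0; have hβ := a.β0
  have G1 := p.wb.G1
  have kG : 0 < κ * G z := by positivity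
  obtain ⟨e, b', h2⟩ := p.h2
  obtain ⟨w, hw⟩ : ∃ w, w = nn (gr σ W z) := ⟨_, rfl⟩
  obtain ⟨g', hg'⟩ : ∃ g', g' = nn (gr σ χ z) := ⟨_, rfl⟩
  have w0 : 0 ≤ w := by rw [hw]; exact nn_nonneg _
  have g0 : 0 ≤ g' := by rw [hg']; exact nn_nonneg _
  have ε1 : ε ≤ 1 / 20 := p.sx.ε1 a.ε1
  have hL := L_chi ok hχ hG (16 * β * κ) hz
  have zpt := H σ Ω θ W K (fun z => χ z ^ 2) h e b' w C C (2 * |χ z| * g') z ok hρ hk hW hK
    (hχ.pow 2) hh hz (sq_nonneg _) h2 (fun i => by rw [hw]; exact abs_le_nn (gr σ W z) i) p.dK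
    p.dh (fun l i j => (p.sx.s1 l i j).trans (by linarith)) (fun i => by
      have e1 : (fun z => χ z ^ 2) = fun z => χ z * χ z := by funext z; ring
      rw [e1, D_mul σ ok.op hχ hχ i hz]
      have e2 : σ.D i χ z * χ z + χ z * σ.D i χ z = 2 * χ z * σ.D i χ z := by ring
      rw [e2, abs_mul, abs_mul, abs_two, hg']
      exact mul_le_mul_of_nonneg_left (abs_le_nn (gr σ χ z) i) (by positivity))
  have w2 : w ^ 2 ≤ M₂ * κ * G z := by rw [hw]; exact p.F2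
  have wk : w ≤ κ * G z := by
    refine (pow_le_pow_iff_left₀ w0 kG.le two_ne_zero).1 (w2.trans ?_)
    have := mul_le_mul_of_nonneg_right g.g0 kG.le
    nlinarith
  have hLW : |σ.Λ W z| ≤ 3 * (Fintype.card ι : ℝ) ^ 2 * C₁ * κ * G z := by
    refine (p.sx.Λ_le a.ε1 p.wb.w2 (fun j => (abs_le_nn (gr σ W z) j).trans (le_of_eq hw.symm))).trans ?_
    have h1 : ε * w ≤ 1 / 20 * w := mul_le_mul_of_nonneg_right ε1 w0
    have h3 : κ * G z ≤ C₁ * (κ * G z) := by nlinarith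
    have h4 : 2 * (C₁ * κ * G z) + ε * w ≤ 3 * (C₁ * κ * G z) := by linarith
    have := mul_le_mul_of_nonneg_left h4 (sq_nonneg (Fintype.card ι : ℝ))
    linarith
  have hLG : |σ.Λ G z| ≤ 3 * (Fintype.card ι : ℝ) ^ 2 * C * G z := by
    refine (p.sx.Λ_le a.ε1 p.g2 p.wb.g1).trans ?_
    have h0 : 0 ≤ C * G z := by positivity
    have h1 : ε * (C * G z) ≤ 1 / 20 * (C * G z) := mul_le_mul_of_nonneg_right ε1 h0
    have h4 : 2 * (C * G z) + ε * (C * G z) ≤ 3 * (C * G z) := by linarith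
    have := mul_le_mul_of_nonneg_left h4 (sq_nonneg (Fintype.card ι : ℝ))
    linarith
  have hGG : |σ.Γ χ G z| ≤ 21 / 20 * (g' * (Fintype.card ι * C * G z)) := by
    refine (p.sx.Γ_le a.ε1 χ G).trans ?_
    rw [← hg']
    have h1 : nn (gr σ G z) ≤ Fintype.card ι * (C * G z) := nn_le_card _ p.wb.g1
    have h2 := mul_le_mul_of_nonneg_left h1 g0
    linarith
  have F1 := p.sx.F_up a.ε1 W
  have F2 := p.sx.F_lo a.ε1 W
  rw [← hw] at F1 F2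
  have hGχ : σ.Γ χ χ z ≤ 21 / 20 * g' ^ 2 := by
    have := (abs_le.1 (p.sx.Γ_le a.ε1 χ χ)).2
    rw [← hg'] at this
    linarith
  have hz' : χ z ^ 2 * (4 / 5 * ((Fintype.card ι : ℝ) - 1 - 1 / 50) * K z ^ 2) -
      Cz * (χ z ^ 2 * ((C + C) * K z * w) + 2 * |χ z| * g' * K z * w) ≤
      zp σ (qI σ K χ h) W z := zpt
  have main := zz_num (χ := χ z) (G := G z) (K := K z) (F := σ.F W z) (w := w) (g := g')
    (LW := σ.Λ W z) (Lχ := σ.Λ χ z) (Gχ := σ.Γ χ χ z) (GG := σ.Γ χ G z) (LG := σ.Λ G z)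
    (zp := zp σ (qI σ K χ h) W z) (N := Fintype.card ι) (C₁ := C₁) (C := C) (M₂ := M₂) (β := β)
    (κ := κ) (Cz := Cz) (c := c7 C β κ) G1 hκ hβ a.β64 hN (by linarith) a.Cz0 w0 g0 F1 F2 w2
    hLW hLG hGχ hGG p.K1 p.K2 hz' a.β1 g.g2 g.g3 g.g4 g.g5
  have e5 : (fun z => χ z * (χ z * (16 * β * κ * G z))) =
      fun z => χ z * (χ z * (16 * β * κ * G z)) := rfl
  rw [hL, p.wb.v1]
  unfold oI
  rw [dD_nn, ← hg']
  refine le_trans (le_of_eq ?_) (main.trans (le_of_eq ?_)) <;> ring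

/-- The second scalar inequality at a point. -/
theorem zz_T' [Nonempty ι] (ot : τ.Ok Ω θ) (hW : Sm Ω W) (hG : Sm Ω G) (hχ : Sm Ω χ)
    (hn : ∀ z ∈ Ω, Nc τ W G C z) (hz : z ∈ Ω) (sb : Sb τ ε z)
    (a : NA (Fintype.card ι) C₁ M₂ β κ C ε Cz) (g : NG (Fintype.card ι) M₂ β κ C Cz (G z)) :
    oI' τ W G χ z + ((H1 (Fintype.card ι) C * χ z ^ 2 + 45 * dD τ χ z) * (4 * τ.F W z + 1) +
            χ z ^ 2 * (c8 C β κ * G z ^ 2)) ≤
      2 * (1 / 24 * (χ z ^ 2 * G z) * τ.F W z + 1 / 24 * (χ z ^ 2 * G z) * τ.Λ W z +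
        τ.Γ (fun z => 1 / 24 * (χ z ^ 2 * G z)) W z) +
        16 * dF τ (fun i z => χ z * (χ z * cq τ W G i z)) W z := by
  have hN := a.N3; have hC := a.C1; have hκ := a.κ0; have hβ := a.β0
  have hnz := hn z hz
  have G1 := hnz.G1
  have sc : ∀ i, Sm Ω (cq τ W G i) := cq_sm ot hW hG fun z hz => (hn z hz).d0
  have ε1 : ε ≤ 1 / 20 := sb.ε1 a.ε1
  obtain ⟨w, hw⟩ : ∃ w, w = nn (gr τ W z) := ⟨_, rfl⟩
  obtain ⟨g', hg'⟩ : ∃ g', g' = nn (gr τ χ z) := ⟨_, rfl⟩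
  have w0 : 0 ≤ w := by rw [hw]; exact nn_nonneg _
  have g0 : 0 ≤ g' := by rw [hg']; exact nn_nonneg _
  have Gw : G z ≤ w := by rw [hw]; exact hnz.lo
  have hd := dF_cq (ε := ε) a.ε1 ot hW hG hn hz sb
  rw [← hw] at hd
  have e0 : (fun (i : ι) z => χ z * (χ z * cq τ W G i z)) =
      fun (i : ι) z => χ z ^ 2 * cq τ W G i z := by
    funext i z; ring
  have hM := H747.SW.dF_mul ot sc hW hχ hz
  have hLW : |τ.Λ W z| ≤ 3 * (Fintype.card ι : ℝ) ^ 2 * C * G z := by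
    refine (sb.Λ_le a.ε1 hnz.w2 hnz.w1).trans ?_
    have h0 : 0 ≤ C * G z := by positivity
    have h1 : ε * (C * G z) ≤ 1 / 20 * (C * G z) := mul_le_mul_of_nonneg_right ε1 h0
    have h4 : 2 * (C * G z) + ε * (C * G z) ≤ 3 * (C * G z) := by linarith
    have := mul_le_mul_of_nonneg_left h4 (sq_nonneg (Fintype.card ι : ℝ))
    linarith
  have F1 := sb.F_up a.ε1 W
  have F2 := sb.F_lo a.ε1 W
  rw [← hw] at F1 F2
  have F0 : 0 ≤ τ.F W z := by have := sq_nonneg w; linarith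
  have hχW : |τ.Γ χ W z| ≤ 21 / 20 * (g' * w) := by rw [hg', hw]; exact sb.Γ_le a.ε1 χ W
  have hGW : |τ.Γ G W z| ≤ 21 / 20 * (Fintype.card ι * C * G z * w) := by
    refine (sb.Γ_le a.ε1 G W).trans ?_
    rw [← hw]
    have h1 : nn (gr τ G z) ≤ Fintype.card ι * (C * G z) := nn_le_card _ hnz.g1
    have h2 := mul_le_mul_of_nonneg_right h1 w0
    linarith
  have hF : |τ.F W z * ∑ j, cq τ W G j z * τ.D j χ z| ≤ 21 / 20 * (G z * w * g') := by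
    have e1 : ∑ j, cq τ W G j z * τ.D j χ z = dd (fun j => cq τ W G j z) (gr τ χ z) := rfl
    have h1 := dd_le_nn (fun j => cq τ W G j z) (gr τ χ z)
    have h2 : nn (fun l => cq τ W G l z) * w = G z := by
      rw [hw, cq_eq]; exact nn_cp hnz.d0 (by linarith)
    rw [e1, abs_mul, abs_of_nonneg F0]
    have h3 : τ.F W z * |dd (fun j => cq τ W G j z) (gr τ χ z)| ≤
        (21 / 20 * w ^ 2) * (nn (fun j => cq τ W G j z) * g') :=
      mul_le_mul F1 (by rw [hg']; exact h1) (abs_nonneg _) (by positivity)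
    have h4 : (21 / 20 * w ^ 2) * (nn (fun j => cq τ W G j z) * g') =
        21 / 20 * ((nn (fun j => cq τ W G j z) * w) * w * g') := by ring
    rw [h4, h2] at h3
    exact h3
  have main := zz_num' (χ := χ z) (G := G z) (F := τ.F W z) (w := w) (g := g')
    (LW := τ.Λ W z) (ΓχW := τ.Γ χ W z) (ΓGW := τ.Γ G W z) (dFc := dF τ (cq τ W G) W z)
    (FS := τ.F W z * ∑ j, cq τ W G j z * τ.D j χ z) (N := Fintype.card ι) (C := C)
    (D₁ := D1 (Fintype.card ι) C) (H₁ := H1 (Fintype.card ι) C) (c₈ := c8 C β κ)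
    G1 Gw g0 F1 F2 (by linarith) (by linarith) (H1_nn (by linarith) (by linarith))
    (c8_nn (by linarith) (by positivity)) (D1_nn (by linarith) (by linarith)) hLW hχW hGW hd hF
    g.g6
  rw [e0, hM, G_chi ot W hχ hG (1 / 24) hz]
  unfold oI'
  rw [dD_nn, ← hg']
  refine le_trans (le_of_eq ?_) (main.trans (le_of_eq ?_)) <;> ring

end Vale.Agent.P088.R2.H660.P
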