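import Vale.Agent.P088.R2.H660.P.InP

/-!
# P088, stage 3: the flat pass, inner zone, the two scalar inequalities
-/

noncomputable section

namespace Vale.Agent.P088.R2.H660.P

private lemma am {a b : ℝ} (t s : ℝ) (ht : 0 < t) (hs : 1 ≤ 4 * t * s) :
    a * b ≤ t * a ^ 2 + s * b ^ 2 := by
  have h1 : 0 ≤ (2 * t * a - b) ^ 2 + (4 * t * s - 1) * b ^ 2 := by
    have : 0 ≤ 4 * t * s - 1 := by linarith
    positivity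
  have h2 : (2 * t * a - b) ^ 2 + (4 * t * s - 1) * b ^ 2 =
      (4 * t) * (t * a ^ 2 + s * b ^ 2 - a * b) := by ring
  rw [h2] at h1
  have h3 := nonneg_of_mul_nonneg_right h1 (by positivity)
  linarith

private lemma ab2 {χ κ G : ℝ} : (κ * G * |χ|) ^ 2 = κ ^ 2 * G ^ 2 * χ ^ 2 := by
  rw [mul_pow, sq_abs]; ring

private lemma b1 {β κ G s x y : ℝ} (hβ : 0 < β) (hκ : 0 < κ) (hG : 1 ≤ G) (hx : x ≤ s * κ * G)
    (hs : 64 * β * s ≤ 1) (hy : 0 ≤ y) :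
    y * (16 * β * κ * G * x) ≤ y * (κ ^ 2 * G ^ 2 / 4) := by
  refine mul_le_mul_of_nonneg_left ?_ hy
  have h1 : 16 * β * κ * G * x ≤ 16 * β * κ * G * (s * κ * G) :=
    mul_le_mul_of_nonneg_left hx (by positivity)
  have h2 : 64 * β * s * (κ ^ 2 * G ^ 2) ≤ 1 * (κ ^ 2 * G ^ 2) :=
    mul_le_mul_of_nonneg_right hs (by positivity)
  linarith only [h1, h2]

private lemma b2 {χ β κ G N C LG : ℝ} (hβ : 0 < β) (hκ : 0 < κ) (hG : 1 ≤ G)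
    (hLG : |LG| ≤ 3 * N ^ 2 * C * G) (n2 : 384 * β * N ^ 2 * C ≤ κ * G) :
    8 * β * κ * (χ ^ 2 * LG) ≤ χ ^ 2 * (κ ^ 2 * G ^ 2 / 16) := by
  have h1 := mul_le_mul_of_nonneg_left (abs_le.1 hLG).2 (by positivity : 0 ≤ 8 * β * κ * χ ^ 2)
  have h2 := mul_le_mul_of_nonneg_left n2 (by positivity : 0 ≤ κ * G * χ ^ 2)
  linarith only [h1, h2]

private lemma b3 {χ β κ G L : ℝ} (hβ : 0 < β) (hβ1 : 64 * β ≤ 1) :
    8 * β * κ * (2 * G * χ * L) ≤ χ ^ 2 * (κ ^ 2 * G ^ 2 / 64) + L ^ 2 := by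
  have h1 := sq_nonneg (8 * β * κ * G * χ - L)
  have h2 : (64 * β) ^ 2 * (κ ^ 2 * G ^ 2 * χ ^ 2) ≤ 1 ^ 2 * (κ ^ 2 * G ^ 2 * χ ^ 2) :=
    mul_le_mul_of_nonneg_right (pow_le_pow_left₀ (by positivity) hβ1 2) (by positivity)
  linarith only [h1, h2]

private lemma b4 {β κ G g X : ℝ} (hβ : 0 < β) (hκ : 0 < κ) (hG : 1 ≤ G) (hβ1 : 64 * β ≤ 1)
    (hX : X ≤ 21 / 20 * g ^ 2) : 8 * β * κ * (2 * G * X) ≤ 27 / 100 * (κ * G * g ^ 2) := by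
  have h0 : 0 ≤ κ * G * g ^ 2 := by positivity
  have h1 := mul_le_mul_of_nonneg_left hX (by positivity : 0 ≤ 16 * β * (κ * G))
  have h2 := mul_le_mul_of_nonneg_right hβ1 h0
  linarith only [h0, h1, h2]

private lemma b5 {χ β κ G g N C GG : ℝ} (hβ : 0 < β) (hκ : 0 < κ) (hG : 1 ≤ G)
    (hβ1 : 64 * β ≤ 1) (hN : 0 ≤ N) (hC : 0 ≤ C) (g0 : 0 ≤ g)
    (hGG : |GG| ≤ 21 / 20 * (g * (N * C * G))) (n4 : 9 * (N * C) ^ 2 ≤ κ * G) :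
    8 * β * κ * (4 * χ * GG) ≤ χ ^ 2 * (κ ^ 2 * G ^ 2 / 64) + 49 / 100 * (κ * G * g ^ 2) := by
  have h1 : χ * GG ≤ |χ| * (21 / 20 * (g * (N * C * G))) := by
    refine (le_abs_self _).trans ?_
    rw [abs_mul]; exact mul_le_mul_of_nonneg_left hGG (abs_nonneg _)
  have h2 := mul_le_mul_of_nonneg_left h1 (by positivity : 0 ≤ 32 * β * κ)
  have h3 : 32 * β * κ * (|χ| * (21 / 20 * (g * (N * C * G)))) ≤
      (κ * G * |χ|) * (21 / 40 * (N * C * g)) := by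
    have h0 : 0 ≤ κ * G * |χ| * (N * C * g) := by positivity
    have := mul_le_mul_of_nonneg_right hβ1 h0
    linarith only [h0, this]
  have h4 := am (a := κ * G * |χ|) (b := 21 / 40 * (N * C * g)) (1 / 64) 16 (by norm_num)
    (by norm_num)
  have h6 : 9 * (N * C) ^ 2 * g ^ 2 ≤ κ * G * g ^ 2 :=
    mul_le_mul_of_nonneg_right n4 (sq_nonneg g)
  rw [ab2] at h4
  linarith only [h2, h3, h4, h6]

private lemma b6 {χ β κ G : ℝ} (hβ : 0 < β) (hβ1 : 64 * β ≤ 1) :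
    (χ * (16 * β * κ * G)) ^ 2 ≤ χ ^ 2 * (κ ^ 2 * G ^ 2 / 16) := by
  have h2 : (64 * β) ^ 2 * (κ ^ 2 * G ^ 2 * χ ^ 2) ≤ 1 ^ 2 * (κ ^ 2 * G ^ 2 * χ ^ 2) :=
    mul_le_mul_of_nonneg_right (pow_le_pow_left₀ (by positivity) hβ1 2) (by positivity)
  linarith only [h2]

private lemma b7 {χ κ G c : ℝ} (hG : 1 ≤ G) (n3 : 16 * c ≤ κ ^ 2 * G) :
    χ ^ 2 * (c * G) ≤ χ ^ 2 * (κ ^ 2 * G ^ 2 / 16) := by
  refine mul_le_mul_of_nonneg_left ?_ (sq_nonneg _)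
  have := mul_le_mul_of_nonneg_right n3 (by linarith : 0 ≤ G)
  linarith only [this]

private lemma b8 {χ κ G K w C Cz M₂ : ℝ} (hκ : 0 < κ) (hG : 1 ≤ G) (hC : 0 ≤ C) (hCz : 0 < Cz)
    (w0 : 0 ≤ w) (K2 : K ≤ 9 / 4 * κ * G) (w2 : w ^ 2 ≤ M₂ * κ * G)
    (n5 : M₂ * (1152 * Cz * C) ^ 2 ≤ κ * G) :
    16 * (Cz * (χ ^ 2 * ((C + C) * K * w))) ≤ χ ^ 2 * (κ ^ 2 * G ^ 2 / 16) := by
  have kG : 0 < κ * G := by positivity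
  have h1 : 1152 * Cz * C * w ≤ κ * G := by
    refine le_of_sq_le_sq ?_ kG.le
    have e1 := mul_le_mul_of_nonneg_left w2 (sq_nonneg (1152 * Cz * C))
    have e2 := mul_le_mul_of_nonneg_right n5 kG.le
    have e3 : (1152 * Cz * C * w) ^ 2 = (1152 * Cz * C) ^ 2 * w ^ 2 := by ring
    rw [e3]
    linarith only [e1, e2]
  have h2 : Cz * (χ ^ 2 * ((C + C) * K * w)) ≤ Cz * (χ ^ 2 * ((C + C) * (9 / 4 * κ * G) * w)) := by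
    gcongr
  have h3 := mul_le_mul_of_nonneg_left h1 (by positivity : 0 ≤ κ * G * χ ^ 2)
  linarith only [h2, h3]

private lemma b9 {χ κ G K w g F Cz : ℝ} (hCz : 0 < Cz)
    (w0 : 0 ≤ w) (g0 : 0 ≤ g) (K2 : K ≤ 9 / 4 * κ * G) (F2 : 19 / 20 * w ^ 2 ≤ F) :
    16 * (Cz * (2 * |χ| * g * K * w)) ≤ χ ^ 2 * (κ ^ 2 * G ^ 2 / 16) +
      21900 * Cz ^ 2 * (F * g ^ 2) := by
  have h1 : Cz * (2 * |χ| * g * K * w) ≤ Cz * (2 * |χ| * g * (9 / 4 * κ * G) * w) := by gcongr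
  have h4 := am (a := κ * G * |χ|) (b := 72 * Cz * (g * w)) (1 / 16) 4 (by norm_num) (by norm_num)
  rw [ab2] at h4
  have h6 := mul_le_mul_of_nonneg_left F2 (by positivity : 0 ≤ Cz ^ 2 * g ^ 2)
  have h7 : 0 ≤ Cz ^ 2 * g ^ 2 * w ^ 2 := by positivity
  linarith only [h1, h4, h6, h7]

/-- The first scalar inequality. -/
theorem zz_num {χ G K F w g LW Lχ Gχ GG LG zp N C₁ C M₂ β κ Cz c : ℝ} (hG : 1 ≤ G) (hκ : 0 < κ)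
    (hβ : 0 < β) (hβ1 : 64 * β ≤ 1) (hN : 3 ≤ N) (hC : 0 ≤ C) (hCz : 0 < Cz)
    (w0 : 0 ≤ w) (g0 : 0 ≤ g) (F1 : F ≤ 21 / 20 * w ^ 2) (F2 : 19 / 20 * w ^ 2 ≤ F)
    (w2 : w ^ 2 ≤ M₂ * κ * G) (hLW : |LW| ≤ 3 * N ^ 2 * C₁ * κ * G)
    (hLG : |LG| ≤ 3 * N ^ 2 * C * G) (hGχ : Gχ ≤ 21 / 20 * g ^ 2)
    (hGG : |GG| ≤ 21 / 20 * (g * (N * C * G))) (K1 : κ * G ≤ K) (K2 : K ≤ 9 / 4 * κ * G)
    (hz : χ ^ 2 * (4 / 5 * (N - 1 - 1 / 50) * K ^ 2) -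
      Cz * (χ ^ 2 * ((C + C) * K * w) + 2 * |χ| * g * K * w) ≤ zp)
    (n1 : 64 * β * (21 / 10 * M₂ + 3 * N ^ 2 * C₁) ≤ 1) (n2 : 384 * β * N ^ 2 * C ≤ κ * G)
    (n3 : 16 * c ≤ κ ^ 2 * G) (n4 : 9 * (N * C) ^ 2 ≤ κ * G)
    (n5 : M₂ * (1152 * Cz * C) ^ 2 ≤ κ * G) :
    (χ ^ 2 * (4 * κ ^ 2 * G ^ 2) - (21900 * Cz ^ 2 * (F * g ^ 2) + κ * G * g ^ 2 + Lχ ^ 2)) +
      χ ^ 2 * (8 * (N - 1 + 3 / 10) * K ^ 2 + κ ^ 2 / 8 * G ^ 2 + c * G) +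
      (χ ^ 2 * (16 * β * κ * G * (2 * F + LW)) +
        8 * β * κ * (χ ^ 2 * LG + 2 * G * χ * Lχ + 2 * G * Gχ + 4 * χ * GG) +
        (χ * (16 * β * κ * G)) ^ 2) ≤ 16 * zp := by
  have x0 := sq_nonneg χ
  have kG : 0 < κ * G := by positivity
  have Q0 : 0 ≤ κ ^ 2 * G ^ 2 * χ ^ 2 := by positivity
  have P0 : 0 ≤ κ * G * g ^ 2 := by positivity
  have a1 := b1 (β := β) (κ := κ) (G := G) (s := 21 / 10 * M₂ + 3 * N ^ 2 * C₁)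
    (x := 2 * F + LW) hβ hκ hG (by
      have := (abs_le.1 hLW).2
      linarith only [this, F1, w2]) n1 x0
  have a2 := b2 (χ := χ) hβ hκ hG hLG n2
  have a3 := b3 (χ := χ) (κ := κ) (G := G) (L := Lχ) hβ hβ1
  have a4 := b4 hβ hκ hG hβ1 hGχ
  have a5 := b5 (χ := χ) hβ hκ hG hβ1 (by linarith : 0 ≤ N) hC g0 hGG n4
  have a6 := b6 (χ := χ) (κ := κ) (G := G) hβ hβ1
  have a7 := b7 (χ := χ) hG n3
  have a8 := b8 (χ := χ) hκ hG hC hCz w0 K2 w2 n5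
  have a9 := b9 (χ := χ) hCz w0 g0 K2 F2
  have hz' := mul_le_mul_of_nonneg_left hz (by norm_num : (0:ℝ) ≤ 16)
  have aK : κ ^ 2 * G ^ 2 * χ ^ 2 ≤ K ^ 2 * χ ^ 2 := by
    refine mul_le_mul_of_nonneg_right ?_ x0
    have := pow_le_pow_left₀ kG.le K1 2
    rw [mul_pow] at this; exact this
  have aN : 3 * (K ^ 2 * χ ^ 2) ≤ N * (K ^ 2 * χ ^ 2) :=
    mul_le_mul_of_nonneg_right hN (by positivity)
  have z1 : 16 * (χ ^ 2 * (4 / 5 * (N - 1 - 1 / 50) * K ^ 2)) -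
      16 * (Cz * (χ ^ 2 * ((C + C) * K * w))) - 16 * (Cz * (2 * |χ| * g * K * w)) ≤ 16 * zp := by
    linarith only [hz']
  have z2 : 8 * β * κ * (χ ^ 2 * LG + 2 * G * χ * Lχ + 2 * G * Gχ + 4 * χ * GG) =
      8 * β * κ * (χ ^ 2 * LG) + 8 * β * κ * (2 * G * χ * Lχ) + 8 * β * κ * (2 * G * Gχ) +
      8 * β * κ * (4 * χ * GG) := by ring
  rw [z2]
  clear z2 hz hz' hLW hLG hGχ hGG
  generalize 16 * (Cz * (χ ^ 2 * ((C + C) * K * w))) = y1 at *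
  generalize 16 * (Cz * (2 * |χ| * g * K * w)) = y2 at *
  generalize 8 * β * κ * (χ ^ 2 * LG) = y3 at *
  generalize 8 * β * κ * (2 * G * χ * Lχ) = y4 at *
  generalize 8 * β * κ * (2 * G * Gχ) = y5 at *
  generalize 8 * β * κ * (4 * χ * GG) = y6 at *
  generalize (χ * (16 * β * κ * G)) ^ 2 = y7 at *
  generalize χ ^ 2 * (16 * β * κ * G * (2 * F + LW)) = y8 at *
  linarith only [a1, a2, a3, a4, a5, a6, a7, a8, a9, z1, aK, aN, Q0, P0]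

/-- The second scalar inequality. -/
theorem zz_num' {χ G F w g LW ΓχW ΓGW dFc FS N C D₁ H₁ c₈ : ℝ} (hG : 1 ≤ G) (Gw : G ≤ w)
    (g0 : 0 ≤ g) (F1 : F ≤ 21 / 20 * w ^ 2) (F2 : 19 / 20 * w ^ 2 ≤ F) (hN : 0 ≤ N) (hC : 0 ≤ C)
    (H0 : 0 ≤ H₁) (c0 : 0 ≤ c₈) (D0 : 0 ≤ D₁)
    (hLW : |LW| ≤ 3 * N ^ 2 * C * G) (hχW : |ΓχW| ≤ 21 / 20 * (g * w))
    (hGW : |ΓGW| ≤ 21 / 20 * (N * C * G * w)) (hd : |dFc| ≤ D₁ * w ^ 2)
    (hF : |FS| ≤ 21 / 20 * (G * w * g))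
    (n1 : 24 * (2 * (N ^ 2 * C + N * C + 16 * D₁ + 5 + c₈) + 6 * H₁) ≤ G) :
    (χ ^ 2 * (G * F / 24) - 310 * (F * g ^ 2)) + ((H₁ * χ ^ 2 + 45 * g ^ 2) * (4 * F + 1) +
      χ ^ 2 * (c₈ * G ^ 2)) ≤
    2 * (χ ^ 2 * (G / 24) * F + χ ^ 2 * (G / 24) * LW +
      1 / 24 * (2 * χ * G * ΓχW + χ ^ 2 * ΓGW)) +
      16 * (χ ^ 2 * dFc + 2 * χ * FS) := by
  have x0 := sq_nonneg χ
  have w0 : 0 ≤ w := by linarith
  have G0 : 0 ≤ G := by linarith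
  have G2 : G ^ 2 ≤ w ^ 2 := pow_le_pow_left₀ G0 Gw 2
  have Gw2 : G * w ≤ w ^ 2 := by nlinarith
  have w1 : 1 ≤ w ^ 2 := by nlinarith
  have y0 : 0 ≤ χ ^ 2 * w ^ 2 := by positivity
  have a1 : -(χ ^ 2 * (G / 24) * LW) ≤ 1 / 8 * (N ^ 2 * C) * (χ ^ 2 * w ^ 2) := by
    have h1 := mul_le_mul_of_nonneg_left (abs_le.1 hLW).1 (by positivity : 0 ≤ χ ^ 2 * (G / 24))
    have h2 := mul_le_mul_of_nonneg_left G2 (by positivity : 0 ≤ 1 / 8 * (N ^ 2 * C) * χ ^ 2)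
    linarith
  have a2 : -(χ ^ 2 * ΓGW) ≤ 21 / 20 * (N * C) * (χ ^ 2 * w ^ 2) := by
    have h1 := mul_le_mul_of_nonneg_left (abs_le.1 hGW).1 x0
    have h2 := mul_le_mul_of_nonneg_left Gw2 (by positivity : 0 ≤ 21 / 20 * (N * C) * χ ^ 2)
    linarith
  have a3 : -(χ * G * ΓχW) ≤ χ ^ 2 * w ^ 2 + w ^ 2 * g ^ 2 := by
    have h1 : -(χ * G * ΓχW) ≤ |χ| * G * (21 / 20 * (g * w)) := by
      refine (neg_le_abs _).trans ?_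
      rw [abs_mul, abs_mul, abs_of_nonneg G0]
      exact mul_le_mul_of_nonneg_left hχW (by positivity)
    have h2 := am (a := |χ| * G) (b := 21 / 20 * (g * w)) 1 (1 / 4) (by norm_num) (by norm_num)
    have h3 : (|χ| * G) ^ 2 = χ ^ 2 * G ^ 2 := by rw [mul_pow, sq_abs]
    rw [h3] at h2
    have h4 := mul_le_mul_of_nonneg_left G2 x0
    have h5 : 0 ≤ w ^ 2 * g ^ 2 := by positivity
    nlinarith
  have a4 : -(χ ^ 2 * dFc) ≤ D₁ * (χ ^ 2 * w ^ 2) := by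
    have h1 := mul_le_mul_of_nonneg_left (abs_le.1 hd).1 x0
    linarith
  have a5 : -(32 * (χ * FS)) ≤ 4 * (χ ^ 2 * w ^ 2) + 141 / 2 * (w ^ 2 * g ^ 2) + w ^ 2 * g ^ 2 := by
    have h1 : -(32 * (χ * FS)) ≤ 32 * (|χ| * (21 / 20 * (G * w * g))) := by
      have : -(χ * FS) ≤ |χ| * (21 / 20 * (G * w * g)) := by
        refine (neg_le_abs _).trans ?_
        rw [abs_mul]
        exact mul_le_mul_of_nonneg_left hF (by positivity)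
      linarith
    have h2 := am (a := |χ| * G) (b := 168 / 5 * (g * w)) 4 (1 / 16) (by norm_num) (by norm_num)
    have h3 : (|χ| * G) ^ 2 = χ ^ 2 * G ^ 2 := by rw [mul_pow, sq_abs]
    rw [h3] at h2
    have h4 := mul_le_mul_of_nonneg_left G2 x0
    have h5 : 0 ≤ w ^ 2 * g ^ 2 := by positivity
    nlinarith
  have wF : w ^ 2 ≤ 20 / 19 * F := by linarith
  have F0 : 0 ≤ F := by linarith
  have a6 : H₁ * χ ^ 2 * (4 * F + 1) ≤ H₁ * χ ^ 2 * (21 / 4 * w ^ 2) :=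
    mul_le_mul_of_nonneg_left (by linarith) (by positivity)
  have a7 : 45 * g ^ 2 * (4 * F + 1) ≤ 45 * g ^ 2 * (4 * F + 20 / 19 * F) :=
    mul_le_mul_of_nonneg_left (by linarith) (by positivity)
  have a8 : χ ^ 2 * (c₈ * G ^ 2) ≤ χ ^ 2 * (c₈ * w ^ 2) := by gcongr
  have a9 : w ^ 2 * g ^ 2 ≤ 20 / 19 * (F * g ^ 2) := by
    have := mul_le_mul_of_nonneg_right wF (sq_nonneg g)
    linarith
  have b0 : 19 / 20 * (G * (χ ^ 2 * w ^ 2)) ≤ χ ^ 2 * G * F := by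
    have := mul_le_mul_of_nonneg_left F2 (by positivity : 0 ≤ χ ^ 2 * G)
    linarith
  have b1 := mul_le_mul_of_nonneg_right n1 y0
  have b2 : 0 ≤ N ^ 2 * C * (χ ^ 2 * w ^ 2) := by positivity
  have b3 : 0 ≤ N * C * (χ ^ 2 * w ^ 2) := by positivity
  have b4 : 0 ≤ D₁ * (χ ^ 2 * w ^ 2) := by positivity
  have b5 : 0 ≤ c₈ * (χ ^ 2 * w ^ 2) := by positivity
  have b6 : 0 ≤ H₁ * (χ ^ 2 * w ^ 2) := by positivity
  have b7 : 0 ≤ F * g ^ 2 := by positivity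
  linarith only [a1, a2, a3, a4, a5, a6, a7, a8, a9, b0, b1, b2, b3, b4, b5, b6, b7, y0]

end Vale.Agent.P088.R2.H660.P
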