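import Vale.Agent.P088.R2.H551.E.Cur

/-!
# P088, stage 3: the flat pass, the letters of the zone (margin and cost)
-/

open MeasureTheory Set Filter
open scoped ContDiff Topology

noncomputable section

namespace Vale.Agent.P088.R2.H660.P

open Vale.Agent.P088.R2.H961.GW Vale.Agent.P088.R2.H960.W Vale.Agent.P088.R2.H551.E

variable {E ι : Type*} [NormedAddCommGroup E] [NormedSpace ℝ E] [Fintype ι]

/-- The margin of the flat pass (without the factor `χ²`); `σ` is the slot of the critical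
gradient, `G = e^f`, `ρ₁ > 0` a fixed small number. -/
def MP (σ τ : Sl E ι) (W G : E → ℝ) (ρ₁ : ℝ) : Q8 E where
  κ _ := 1 / 4
  ζ₁ z := ρ₁ * G z
  ζ₂ z := ρ₁ * G z
  ζy _ := 0
  w₁ z := ρ₁ * (G z * (G z + σ.F W z))
  w₂ z := ρ₁ * (G z * τ.F W z)
  wb _ := 0
  wc _ := 0

/-- The cost of the outer cut-offs of the flat pass; `om` is a continuous function with
`|D_x χ|², |D_y χ|², (Λ χ)² ≤ om`, zero where `χ` is locally constant. -/
def coP (σ τ : Sl E ι) (W G om : E → ℝ) (C : ℝ) : Q8 E where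
  κ _ := 0
  ζ₁ z := C * om z
  ζ₂ z := C * om z
  ζy _ := 0
  w₁ z := C * (om z * (G z + σ.F W z))
  w₂ z := C * (om z * τ.F W z)
  wb _ := 0
  wc _ := 0

/-- The mirror margin (`τ` is the slot of the critical gradient). -/
def MPm (σ τ : Sl E ι) (W G : E → ℝ) (ρ₁ : ℝ) : Q8 E where
  κ _ := 1 / 4
  ζ₁ z := ρ₁ * G z
  ζ₂ z := ρ₁ * G z
  ζy _ := 0
  w₁ z := ρ₁ * (G z * σ.F W z)
  w₂ z := ρ₁ * (G z * (G z + τ.F W z))
  wb _ := 0
  wc _ := 0

/-- The mirror cost. -/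
def coPm (σ τ : Sl E ι) (W G om : E → ℝ) (C : ℝ) : Q8 E where
  κ _ := 0
  ζ₁ z := C * om z
  ζ₂ z := C * om z
  ζy _ := 0
  w₁ z := C * (om z * σ.F W z)
  w₂ z := C * (om z * (G z + τ.F W z))
  wb _ := 0
  wc _ := 0

end Vale.Agent.P088.R2.H660.P
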