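import Vale.Agent.P088.R2.H660.P.Data

/-!
# P088, stage 3: the flat pass, slots close to the flat one
-/

open MeasureTheory Set Filter
open scoped ContDiff Topology

noncomputable section

namespace Vale.Agent.P088.R2.H660.P

open Vale.Agent.P088.R2.H961.GW Vale.Agent.P088.R2.H644 Vale.Agent.P088.R2.H960.W
  Vale.Agent.P088.R2.H230.W Vale.Agent.P088.R2.H551.E
open Vale.Agent.P088.R2.H660.W (sA qA sd lat)

variable {E ι : Type*} [NormedAddCommGroup E] [NormedSpace ℝ E] [Fintype ι]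

/-- `∑ s_ij A_i B_j`. -/
def bq (σ : Sl E ι) (z : E) (A B : ι → ℝ) : ℝ := ∑ i, ∑ j, σ.s i j z * A i * B j

theorem sA_eq (σ : Sl E ι) (z : E) (A : ι → ℝ) : sA σ z A = bq σ z A A := rfl

theorem Γ_eq (σ : Sl E ι) (f g : E → ℝ) (z : E) : σ.Γ f g z = bq σ z (gr σ f z) (gr σ g z) := rfl

theorem F_eq (σ : Sl E ι) (f : E → ℝ) (z : E) : σ.F f z = bq σ z (gr σ f z) (gr σ f z) := rfl

theorem dd_sq (A : ι → ℝ) : dd A A = ∑ i, A i ^ 2 := by
  unfold dd; exact Finset.sum_congr rfl fun i _ => by ring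

theorem l1_sq_le (A : ι → ℝ) : (∑ i, |A i|) ^ 2 ≤ Fintype.card ι * nn A ^ 2 := by
  rw [nn_sq, dd_sq]; exact L1_sq A

theorem l1l1 (A B : ι → ℝ) :
    (∑ i, |A i|) * (∑ i, |B i|) ≤ Fintype.card ι * (nn A * nn B) := by
  have h1 := l1_sq_le A
  have h2 := l1_sq_le B
  have n1 := nn_nonneg A
  have n2 := nn_nonneg B
  have a0 : 0 ≤ ∑ i, |A i| := Finset.sum_nonneg fun i _ => abs_nonneg _
  have b0 : 0 ≤ ∑ i, |B i| := Finset.sum_nonneg fun i _ => abs_nonneg _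
  have N0 : (0:ℝ) ≤ Fintype.card ι := Nat.cast_nonneg _
  refine abs_le_of_sq_le_sq' ?_ (by positivity) |>.2
  calc ((∑ i, |A i|) * ∑ i, |B i|) ^ 2 = (∑ i, |A i|) ^ 2 * (∑ i, |B i|) ^ 2 := by ring
    _ ≤ (Fintype.card ι * nn A ^ 2) * (Fintype.card ι * nn B ^ 2) :=
        mul_le_mul h1 h2 (sq_nonneg _) (by positivity)
    _ = _ := by ring

theorem YY_sum (σ : Sl E ι) (W a : E → ℝ) (z : E) : (∑ i, YY σ W a i z ^ 2) ≤
    2 * dd (Ch.XX σ W a z) (Ch.XX σ W a z) + 8 * (dd (gr σ W z) (gr σ W z) * a z ^ 2) := by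
  rw [dd_sq, dd_sq, Finset.sum_mul, Finset.mul_sum, Finset.mul_sum, ← Finset.sum_add_distrib]
  refine Finset.sum_le_sum fun i _ => ?_
  unfold YY Ch.XX gr
  nlinarith [sq_nonneg (3 * (a z * σ.D i W z) - σ.D i a z)]

variable [DecidableEq ι]

theorem dd_dl (A B : ι → ℝ) : ∑ i, ∑ j, dl i j * A i * B j = dd A B := by
  unfold dd dl
  refine Finset.sum_congr rfl fun i _ => ?_
  simp [Finset.sum_ite_eq]

section slot

variable {σ : Sl E ι} {ε : ℝ} {z : E}

theorem Sb.bq_sub (h : Sb σ ε z) (A B : ι → ℝ) :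
    |bq σ z A B - dd A B| ≤ Fintype.card ι * ε * (nn A * nn B) := by
  have e : bq σ z A B - dd A B = ∑ i, ∑ j, (σ.s i j z - dl i j) * A i * B j := by
    rw [← dd_dl A B]
    unfold bq
    simp only [← Finset.sum_sub_distrib]
    exact Finset.sum_congr rfl fun i _ => Finset.sum_congr rfl fun j _ => by ring
  rw [e]
  refine (abs_sum2_le (fun i j => σ.s i j z - dl i j) h.ss A B).trans ?_
  rcases isEmpty_or_nonempty ι with he | ⟨⟨i₀⟩⟩
  · simp
  · have ε0 : 0 ≤ ε := (abs_nonneg _).trans (h.ss i₀ i₀)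
    have := mul_le_mul_of_nonneg_left (l1l1 A B) ε0
    linarith

variable (hε : 20 * (Fintype.card ι * ε) ≤ 1)

include hε

theorem Sb.bq_le (h : Sb σ ε z) (A B : ι → ℝ) : |bq σ z A B| ≤ 21 / 20 * (nn A * nn B) := by
  have h1 := h.bq_sub A B
  have h2 := dd_le_nn A B
  have h3 : 0 ≤ nn A * nn B := mul_nonneg (nn_nonneg _) (nn_nonneg _)
  have h4 : Fintype.card ι * ε * (nn A * nn B) ≤ 1 / 20 * (nn A * nn B) :=
    mul_le_mul_of_nonneg_right (by linarith) h3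
  have h5 := abs_add_le (bq σ z A B - dd A B) (dd A B)
  rw [sub_add_cancel] at h5
  linarith

theorem Sb.sA_lo (h : Sb σ ε z) (A : ι → ℝ) : 19 / 20 * dd A A ≤ sA σ z A := by
  have h1 := (abs_le.1 (h.bq_sub A A)).1
  rw [nn_mul_self] at h1
  have h3 := dd_self_nonneg A
  have h4 : Fintype.card ι * ε * dd A A ≤ 1 / 20 * dd A A :=
    mul_le_mul_of_nonneg_right (by linarith) h3
  rw [sA_eq]
  linarith

theorem Sb.sA_up (h : Sb σ ε z) (A : ι → ℝ) : sA σ z A ≤ 21 / 20 * dd A A := by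
  have h1 := (abs_le.1 (h.bq_sub A A)).2
  rw [nn_mul_self] at h1
  have h3 := dd_self_nonneg A
  have h4 : Fintype.card ι * ε * dd A A ≤ 1 / 20 * dd A A :=
    mul_le_mul_of_nonneg_right (by linarith) h3
  rw [sA_eq]
  linarith

theorem Sb.F_lo (h : Sb σ ε z) (W : E → ℝ) : 19 / 20 * nn (gr σ W z) ^ 2 ≤ σ.F W z := by
  rw [nn_sq]; exact h.sA_lo hε (gr σ W z)

theorem Sb.F_up (h : Sb σ ε z) (W : E → ℝ) : σ.F W z ≤ 21 / 20 * nn (gr σ W z) ^ 2 := by
  rw [nn_sq]; exact h.sA_up hε (gr σ W z)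

theorem Sb.Γ_le (h : Sb σ ε z) (f g : E → ℝ) :
    |σ.Γ f g z| ≤ 21 / 20 * (nn (gr σ f z) * nn (gr σ g z)) := h.bq_le hε _ _

/-- `|s A - A| ≤ (1/20) |A|`. -/
theorem Sb.sU_sub (h : Sb σ ε z) (A : ι → ℝ) : nn (sU σ z A - A) ≤ 1 / 20 * nn A := by
  have n0 := nn_nonneg A
  rcases isEmpty_or_nonempty ι with he | ⟨⟨i₀⟩⟩
  · have : nn (sU σ z A - A) = 0 := by
      unfold nn dd; simp
    rw [this]; positivity
  have ε0 : 0 ≤ ε := (abs_nonneg _).trans (h.ss i₀ i₀)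
  have N0 : (0:ℝ) ≤ Fintype.card ι := Nat.cast_nonneg _
  have e : ∀ i, (sU σ z A - A) i = ∑ j, (σ.s i j z - dl i j) * A j := by
    intro i
    simp only [Pi.sub_apply, sU, sub_mul, Finset.sum_sub_distrib, dl]
    simp
  have t : ∀ i, |(sU σ z A - A) i| ≤ ε * ∑ j, |A j| := by
    intro i
    rw [e, Finset.mul_sum]
    refine (Finset.abs_sum_le_sum_abs _ _).trans (Finset.sum_le_sum fun j _ => ?_)
    rw [abs_mul]
    exact mul_le_mul_of_nonneg_right (h.ss i j) (abs_nonneg _)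
  have h1 : dd (sU σ z A - A) (sU σ z A - A) ≤ (Fintype.card ι * ε * nn A) ^ 2 := by
    rw [dd_sq]
    calc ∑ i, (sU σ z A - A) i ^ 2 ≤ ∑ _i : ι, (ε * ∑ j, |A j|) ^ 2 :=
          Finset.sum_le_sum fun i _ => by
            rw [← sq_abs]; exact pow_le_pow_left₀ (abs_nonneg _) (t i) 2
      _ = Fintype.card ι * (ε ^ 2 * (∑ j, |A j|) ^ 2) := by
          rw [Finset.sum_const, Finset.card_univ, nsmul_eq_mul]; ring
      _ ≤ Fintype.card ι * (ε ^ 2 * (Fintype.card ι * nn A ^ 2)) := by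
          have := l1_sq_le A
          gcongr
      _ = _ := by ring
  refine (nn_le_of_sq (by positivity) h1).trans ?_
  exact mul_le_mul_of_nonneg_right (by linarith) n0

theorem Sb.sU_lo (h : Sb σ ε z) (A : ι → ℝ) : 9 / 10 * dd A A ≤ dd (sU σ z A) (sU σ z A) := by
  have h1 := h.sU_sub hε A
  have h2 := nn_le_add A (sU σ z A)
  rw [nn_sub_comm] at h2
  have n0 := nn_nonneg A
  have h3 : 19 / 20 * nn A ≤ nn (sU σ z A) := by linarith
  have h4 := pow_le_pow_left₀ (by positivity) h3 2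
  rw [nn_sq, mul_pow, nn_sq] at h4
  have := dd_self_nonneg A
  linarith

theorem Sb.sU_up (h : Sb σ ε z) (A : ι → ℝ) : dd (sU σ z A) (sU σ z A) ≤ 6 / 5 * dd A A := by
  have h1 := h.sU_sub hε A
  have h2 := nn_le_add (sU σ z A) A
  have n0 := nn_nonneg A
  have h3 : nn (sU σ z A) ≤ 21 / 20 * nn A := by linarith
  have h4 := pow_le_pow_left₀ (nn_nonneg _) h3 2
  rw [nn_sq, mul_pow, nn_sq] at h4
  have := dd_self_nonneg A
  linarith

theorem Sb.ε1 [Nonempty ι] (_h : Sb σ ε z) : ε ≤ 1 / 20 := by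
  have N1 : (1:ℝ) ≤ Fintype.card ι := by exact_mod_cast Fintype.card_pos
  by_contra hc
  have hc := not_le.1 hc
  have : 1 / 20 ≤ Fintype.card ι * ε := by nlinarith
  nlinarith

theorem Sb.s2 [Nonempty ι] (h : Sb σ ε z) (i j : ι) : |σ.s i j z| ≤ 2 := by
  have h1 := h.ss i j
  have h2 := h.ε1 hε
  have h3 : |(dl i j : ℝ)| ≤ 1 := by
    unfold dl; split_ifs <;> simp
  have h4 := abs_add_le (σ.s i j z - dl i j) (dl i j)
  rw [sub_add_cancel] at h4
  linarith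

/-- The size of `Λ f`. -/
theorem Sb.Λ_le [Nonempty ι] (h : Sb σ ε z) {f : E → ℝ} {H D : ℝ}
    (hH : ∀ i j, |σ.D i (σ.D j f) z| ≤ H) (hD : ∀ j, |σ.D j f z| ≤ D) :
    |σ.Λ f z| ≤ Fintype.card ι ^ 2 * (2 * H + ε * D) := by
  obtain ⟨i₀⟩ := ‹Nonempty ι›
  have ε0 : 0 ≤ ε := (abs_nonneg _).trans (h.ss i₀ i₀)
  unfold Sl.Λ
  have t : ∀ i, ∀ j, |σ.s i j z * (σ.D i (σ.D j f) z + σ.k i z * σ.D j f z) +
      σ.D i (σ.s i j) z * σ.D j f z| ≤ 2 * H + ε * D := by
    intro i j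
    rw [h.k1 i, zero_mul, add_zero]
    refine (abs_add_le _ _).trans (add_le_add ?_ ?_)
    · rw [abs_mul]; exact mul_le_mul (h.s2 hε i j) (hH i j) (abs_nonneg _) (by norm_num)
    · rw [abs_mul]; exact mul_le_mul (h.s1 i i j) (hD j) (abs_nonneg _) ε0
  calc _ ≤ ∑ _i : ι, ∑ _j : ι, (2 * H + ε * D) :=
        (Finset.abs_sum_le_sum_abs _ _).trans (Finset.sum_le_sum fun i _ =>
          (Finset.abs_sum_le_sum_abs _ _).trans (Finset.sum_le_sum fun j _ => t i j))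
    _ = _ := by
        simp only [Finset.sum_const, Finset.card_univ, nsmul_eq_mul]; ring

end slot

/-! ## The form `s (1 - h h) s` -/

theorem Ph_sym {σ : Sl E ι} (ok : ∀ i j z, σ.s i j z = σ.s j i z) (h : ι → E → ℝ) (i j : ι) (z : E) :
    Ph σ h i j z = Ph σ h j i z := by
  unfold Ph
  rw [Finset.sum_comm]
  refine Finset.sum_congr rfl fun k _ => Finset.sum_congr rfl fun l _ => ?_
  rw [ok i l z, ok k j z]
  have : (dl l k : ℝ) = dl k l := by unfold dl; simp [eq_comm]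
  rw [this]; ring

theorem Ph_form {σ : Sl E ι} {z : E} (sy : ∀ i j, σ.s i j z = σ.s j i z) (h : ι → E → ℝ) (A : ι → ℝ) :
    ∑ i, ∑ j, Ph σ h i j z * A i * A j = lat (fun i => h i z) (sU σ z A) := by
  have e0 : ∀ V : ι → ℝ, lat (fun i => h i z) V =
      ∑ k, ∑ l, (dl k l - h k z * h l z) * V k * V l := by
    intro V
    unfold lat
    rw [← dd_dl V V]
    have : dd (fun i => h i z) V ^ 2 = ∑ k, ∑ l, h k z * h l z * V k * V l := by
      unfold dd
      rw [sq, Finset.sum_mul_sum]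
      exact Finset.sum_congr rfl fun i _ => Finset.sum_congr rfl fun j _ => by ring
    rw [this]
    simp only [← Finset.sum_sub_distrib]
    exact Finset.sum_congr rfl fun i _ => Finset.sum_congr rfl fun j _ => by ring
  rw [e0]
  have e1 : ∀ k l, (dl k l - h k z * h l z) * sU σ z A k * sU σ z A l =
      ∑ i, ∑ j, σ.s i k z * (dl k l - h k z * h l z) * σ.s l j z * A i * A j := by
    intro k l
    have : (dl k l - h k z * h l z) * sU σ z A k * sU σ z A l =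
        (dl k l - h k z * h l z) * (sU σ z A k * sU σ z A l) := by ring
    rw [this]
    unfold sU
    rw [Finset.sum_mul_sum, Finset.mul_sum]
    refine Finset.sum_congr rfl fun i _ => ?_
    rw [Finset.mul_sum]
    refine Finset.sum_congr rfl fun j _ => ?_
    rw [sy i k]
    ring
  simp only [e1]
  unfold Ph
  simp only [Finset.sum_mul]
  have c1 : ∀ i, ∑ j, ∑ k, ∑ l, σ.s i k z * (dl k l - h k z * h l z) * σ.s l j z * A i * A j =
      ∑ k, ∑ l, ∑ j, σ.s i k z * (dl k l - h k z * h l z) * σ.s l j z * A i * A j := by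
    intro i
    rw [Finset.sum_comm]
    exact Finset.sum_congr rfl fun k _ => Finset.sum_comm
  simp only [c1]
  rw [Finset.sum_comm]
  exact Finset.sum_congr rfl fun k _ => Finset.sum_comm

end Vale.Agent.P088.R2.H660.P
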