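import Vale.Agent.P088.R2.H660.P.In

/-!
# P088, stage 3: the flat pass, the inner zone in the common form
-/

open MeasureTheory Set Filter
open scoped ContDiff Topology

noncomputable section

namespace Vale.Agent.P088.R2.H660.P

open Vale.Agent.P088.R2.H961.GW Vale.Agent.P088.R2.H644 Vale.Agent.P088.R2.H960.W
  Vale.Agent.P088.R2.H230.W Vale.Agent.P088.R2.H551.E
open Vale.Agent.P088.R2.H660.W (sA qA qX lat zp tube lat_nonneg tsX1)
open Vale.Agent.P088.R2.H747.SW (sm_cut Dz ext_te In_loc)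

variable {E ι : Type*} [NormedAddCommGroup E] [NormedSpace ℝ E] [Fintype ι]

/-- The margin of the inner zone (without the factor `χ²`). -/
def MIn (τ : Sl E ι) (W G : E → ℝ) (κ β : ℝ) : Q8 E where
  κ _ := 1 / 2
  ζ₁ z := 2 * β * κ * G z
  ζ₂ z := G z / 4
  ζy _ := 0
  w₁ z := 4 * κ ^ 2 * G z ^ 2
  w₂ z := G z * τ.F W z / 24
  wb _ := 0
  wc _ := 0

/-- The cost of the inner zone. -/
def cIn (σ τ : Sl E ι) (W G χ : E → ℝ) (κ Cz : ℝ) : Q8 E where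
  κ _ := 0
  ζ₁ _ := 0
  ζ₂ z := 50 * dD τ χ z
  ζy _ := 0
  w₁ z := 21900 * Cz ^ 2 * (σ.F W z * dD σ χ z) + κ * G z * dD σ χ z + σ.Λ χ z ^ 2
  w₂ z := 310 * (τ.F W z * dD τ χ z)
  wb _ := 0
  wc _ := 0

section pw

variable {σ τ : Sl E ι} {U Ω S : Set E} {θ v₁ v₂ W G χ a b : E → ℝ} {z : E} {κ β Cz : ℝ}

omit [Fintype ι] in
theorem D0f (σ : Sl E ι) (i : ι) : σ.D i (fun _ => (0:ℝ)) = fun _ => 0 :=
  funext fun z => D_const σ 0 i z

theorem L0f (σ : Sl E ι) (z : E) : σ.Λ (fun _ => (0:ℝ)) z = 0 := by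
  unfold Sl.Λ; simp [D0f]

theorem Lz (ok : σ.Ok U θ) (hS : IsClosed S) (h0 : ∀ z ∈ U, z ∉ S → χ z = 0) :
    ∀ z ∈ U, z ∉ S → σ.Λ χ z = 0 := by
  intro z hz hs
  have hV : IsOpen (U ∩ Sᶜ) := ok.op.inter hS.isOpen_compl
  have ok' := Ok_mono ok hV inter_subset_left
  rw [L_congr ok' (g := fun _ => 0) (fun w hw => h0 w hw.1 hw.2) ⟨hz, hs⟩]
  exact L0f σ z

theorem dDz (hU : IsOpen U) (hS : IsClosed S) (h0 : ∀ z ∈ U, z ∉ S → χ z = 0) :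
    ∀ z ∈ U, z ∉ S → dD σ χ z = 0 := by
  intro z hz hs
  unfold dD
  simp [Dz (σ := σ) hU hS h0 z hz hs]

/-- Continuity of the margin. -/
theorem MIn_ct (ot : τ.Ok U θ) (hW : Sm U W) (hχ : Sm U χ) (hΩ : IsOpen Ω)
    (h : Ω ⊆ U) (hS : IsClosed S) (hSU : U ∩ S ⊆ Ω) (h0 : ∀ z ∈ U, z ∉ S → χ z = 0)
    (hG : Sm Ω G) : ((MIn τ W G κ β).sm fun z => χ z ^ 2).Ct U := by
  have hU := ot.op
  have hc : Sm U fun z => χ z ^ 2 := hχ.pow 2
  have h1 : Sm U fun z => χ z ^ 2 * G z :=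
    sm_cut hU hΩ hS hSU ((hc.mono h).mul hG) fun z hz hs => by rw [h0 z hz hs]; ring
  have h2 : Sm U fun z => χ z ^ 2 * G z ^ 2 :=
    sm_cut hU hΩ hS hSU ((hc.mono h).mul (hG.pow 2)) fun z hz hs => by rw [h0 z hz hs]; ring
  have h3 : Sm U (τ.F W) := ot.sG hW hW
  refine ⟨(hc.mul contDiffOn_const).continuousOn, ?_, ?_,
    (hc.mul contDiffOn_const).continuousOn, ?_, ?_, (hc.mul contDiffOn_const).continuousOn,
    (hc.mul contDiffOn_const).continuousOn⟩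
  · have : Sm U fun z => 2 * β * κ * (χ z ^ 2 * G z) := contDiffOn_const.mul h1
    refine this.continuousOn.congr fun z _ => ?_
    simp only [Q8.sm, MIn, Pi.mul_apply]; ring
  · have : Sm U fun z => χ z ^ 2 * G z / 4 := h1.div_const _
    refine this.continuousOn.congr fun z _ => ?_
    simp only [Q8.sm, MIn, Pi.mul_apply]; ring
  · have : Sm U fun z => 4 * κ ^ 2 * (χ z ^ 2 * G z ^ 2) := contDiffOn_const.mul h2
    refine this.continuousOn.congr fun z _ => ?_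
    simp only [Q8.sm, MIn, Pi.mul_apply]; ring
  · have : Sm U fun z => (χ z ^ 2 * G z) * τ.F W z / 24 := (h1.mul h3).div_const _
    refine this.continuousOn.congr fun z _ => ?_
    simp only [Q8.sm, MIn, Pi.mul_apply]; ring

theorem smGd (ok : σ.Ok U θ) (hχ : Sm U χ) (hΩ : IsOpen Ω)
    (h : Ω ⊆ U) (hS : IsClosed S) (hSU : U ∩ S ⊆ Ω) (h0 : ∀ z ∈ U, z ∉ S → χ z = 0)
    (hG : Sm Ω G) : Sm U fun z => G z * dD σ χ z :=
  sm_cut ok.op hΩ hS hSU (hG.mul ((sdD ok hχ).mono h)) fun z hz hs => by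
    rw [dDz (σ := σ) ok.op hS h0 z hz hs]; ring

/-- Continuity of the cost. -/
theorem cIn_ct (ok : σ.Ok U θ) (ot : τ.Ok U θ) (hW : Sm U W) (hχ : Sm U χ) (hΩ : IsOpen Ω)
    (h : Ω ⊆ U) (hS : IsClosed S) (hSU : U ∩ S ⊆ Ω) (h0 : ∀ z ∈ U, z ∉ S → χ z = 0)
    (hG : Sm Ω G) : (cIn σ τ W G χ κ Cz).Ct U := by
  have h1 := smGd ok hχ hΩ h hS hSU h0 hG
  have sd := sdD ok hχ
  have sd' := sdD ot hχ
  refine ⟨continuousOn_const, continuousOn_const, (contDiffOn_const.mul sd').continuousOn,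
    continuousOn_const, ?_, (contDiffOn_const.mul ((ot.sG hW hW).mul sd')).continuousOn,
    continuousOn_const, continuousOn_const⟩
  have : Sm U fun z => 21900 * Cz ^ 2 * (σ.F W z * dD σ χ z) + κ * (G z * dD σ χ z) +
      σ.Λ χ z ^ 2 :=
    ((contDiffOn_const.mul ((ok.sG hW hW).mul sd)).add (contDiffOn_const.mul h1)).add
      ((ok.sL hχ).pow 2)
  refine this.continuousOn.congr fun z _ => ?_
  simp only [cIn]; ring

variable {N : ℝ}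

/-- The comparison of the densities on the set of the data. -/
theorem cmp_on [DecidableEq ι] {ε H₁ : ℝ} (sx : Sb σ ε z) (sy : Sb τ ε z)
    (hε : 20 * (Fintype.card ι * ε) ≤ 1) (hβ : 0 < β) (hκ : 0 < κ) (hG : 1 ≤ G z)
    (hH : 15 * H₁ ≤ G z) :
    ((MIn τ W G κ β).sm fun z => χ z ^ 2).dens σ τ v₁ v₂ W a b z -
      (cIn σ τ W G χ κ Cz).dens σ τ v₁ v₂ W a b z ≤
      χ z ^ 2 * dn σ τ v₁ v₂ W a b z - JJ σ τ v₁ v₂ W G χ κ β Cz H₁ a b z := by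
  have s1 := sx.sA_lo hε (Ch.XX σ W a z)
  have s2 := sy.sA_lo hε (Ch.XX τ W b z)
  have s3 := sy.sA_up hε (Ch.XX τ W b z)
  have n1 : dd (Ch.XX σ W a z) (Ch.XX σ W a z) = nX σ W a z := by rw [dd_sq]; rfl
  have n2 : dd (Ch.XX τ W b z) (Ch.XX τ W b z) = nX τ W b z := by rw [dd_sq]; rfl
  have n3 : sA σ z (XX σ W a · z) = sA σ z (Ch.XX σ W a z) := rfl
  have n4 : sA τ z (XX τ W b · z) = sA τ z (Ch.XX τ W b z) := rfl
  rw [n1] at s1
  rw [n2] at s2 s3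
  have x0 := sq_nonneg (χ z)
  have a0 := Q8.nX_nonneg σ W a z
  have b0 := Q8.nX_nonneg τ W b z
  have d0 : 0 ≤ dD τ χ z := Finset.sum_nonneg fun _ _ => sq_nonneg _
  rw [Q8.dens_sm]
  unfold dn JJ mI oI oI'
  rw [n3, n4]
  simp only [Q8.dens, MIn, cIn]
  obtain ⟨p, hp⟩ : ∃ p, p = sA σ z (Ch.XX σ W a z) := ⟨_, rfl⟩
  obtain ⟨q, hq⟩ : ∃ q, q = sA τ z (Ch.XX τ W b z) := ⟨_, rfl⟩
  rw [← hp] at s1 ⊢
  rw [← hq] at s2 s3 ⊢
  have c1 : 2 * β * κ * G z * nX σ W a z * χ z ^ 2 ≤ χ z ^ 2 * (4 * β * κ * G z) * p := by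
    have h1 : nX σ W a z ≤ 2 * p := by linarith
    have h2 := mul_le_mul_of_nonneg_left h1 (by positivity : 0 ≤ 2 * β * κ * G z * χ z ^ 2)
    linarith
  have c2 : χ z ^ 2 * (G z / 4) * nX τ W b z ≤ χ z ^ 2 * (G z / 3 - H₁) * q := by
    have h0 : 0 ≤ G z / 3 - H₁ := by linarith
    have h1 : G z / 4 * nX τ W b z ≤ (G z / 3 - H₁) * (19 / 20 * nX τ W b z) := by
      have : G z / 4 ≤ (G z / 3 - H₁) * (19 / 20) := by linarith
      have := mul_le_mul_of_nonneg_right this b0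
      linarith
    have h2 := mul_le_mul_of_nonneg_left s2 h0
    have h3 := mul_le_mul_of_nonneg_left (h1.trans h2) x0
    linarith
  have c3 : 45 * dD τ χ z * q ≤ 50 * dD τ χ z * nX τ W b z := by
    have h1 : 45 * q ≤ 50 * nX τ W b z := by linarith
    have := mul_le_mul_of_nonneg_left h1 d0
    linarith
  have c4 : 0 ≤ χ z ^ 2 * (1 / 2 * τ.P v₂ W a z ^ 2 + 1 / 2 * σ.P v₁ W b z ^ 2 +
    1 / 4 * τ.P v₂ W b z ^ 2) := by positivity
  unfold sqd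
  linarith

end pw

variable [MeasureSpace E] [FiniteDimensional ℝ E] [BorelSpace E]
  [(volume : Measure E).IsAddHaarMeasure]

section integral

variable [DecidableEq ι] {σ τ : Sl E ι} {U Ω S : Set E} {θ v₁ v₂ W G K χ : E → ℝ}
  {h : ι → E → ℝ} {κ C₁ C M₂ β ε εz Cz : ℝ}

/-- **The inner zone of the flat pass.** -/
theorem zone_in [Nonempty ι] (H : PZ E ι εz Cz) (ok : σ.Ok U θ) (ot : τ.Ok U θ)
    (hρ : ∀ z, σ.ρ z = 1) (hk : ∀ i z, σ.k i z = 0) (hv₁ : Sm U v₁) (hv₂ : Sm U v₂)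
    (hW : Sm U W) (hχ : Sm U χ) (hΩ : IsOpen Ω) (h' : Ω ⊆ U) (hS : IsClosed S)
    (hSU : U ∩ S ⊆ Ω) (h0 : ∀ z ∈ U, z ∉ S → χ z = 0) (hK : Sm Ω K) (hG : Sm Ω G)
    (hh : ∀ i, Sm Ω (h i)) (pin : ∀ z ∈ Ω, Pin σ τ v₁ v₂ W G K h κ C₁ C M₂ β ε εz z)
    (na : NA (Fintype.card ι) C₁ M₂ β κ C ε Cz)
    (ng : ∀ z ∈ Ω, NG (Fintype.card ι) M₂ β κ C Cz (G z)) :
    Zone σ τ U θ v₁ v₂ W χ ((MIn τ W G κ β).sm fun z => χ z ^ 2) (cIn σ τ W G χ κ Cz) := by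
  intro a b ha hb
  have hU := ok.op
  obtain ⟨a₁, ta, ea⟩ := ext_te hΩ ha hS hSU
  obtain ⟨b₁, tb, eb⟩ := ext_te hΩ hb hS hSU
  have ok' := Ok_mono ok hΩ h'
  have ot' := Ok_mono ot hΩ h'
  have main := in_tube H ok' ot' hρ hk (hv₁.mono h') (hv₂.mono h') (hW.mono h') hK hG
    (hχ.mono h') hh ta tb pin na ng
  obtain ⟨H₁, hH₁⟩ : ∃ x, x = H1 (Fintype.card ι) C := ⟨_, rfl⟩
  rw [← hH₁] at main
  have nS : ∀ z ∈ U, z ∉ Ω → z ∉ S := fun z hz hn hs => hn (hSU ⟨hz, hs⟩)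
  have J0 : ∀ (x y : E → ℝ), ∀ z ∈ U, z ∉ S → JJ σ τ v₁ v₂ W G χ κ β Cz H₁ x y z = 0 :=
    fun x y z hz hs => JJ_off (h0 z hz hs) (Dz hU hS h0 z hz hs) (Dz hU hS h0 z hz hs)
      (Lz ok hS h0 z hz hs)
  have e1 : In Ω θ (JJ σ τ v₁ v₂ W G χ κ β Cz H₁ a₁ b₁) =
      In U θ (JJ σ τ v₁ v₂ W G χ κ β Cz H₁ a b) := by
    refine In_loc hU hΩ h' (fun z hz => ?_) fun z hz hn => J0 _ _ z hz (nS z hz hn)
    by_cases hs : z ∈ S
    · exact JJ_loc (ea z ⟨h' hz, hs⟩) (eb z ⟨h' hz, hs⟩)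
    · rw [J0 _ _ z (h' hz) hs, J0 _ _ z (h' hz) hs]
  rw [e1] at main
  -- smooth coefficients
  have hc : Sm U fun z => χ z ^ 2 := hχ.pow 2
  have h1 : Sm U fun z => χ z ^ 2 * G z :=
    sm_cut hU hΩ hS hSU ((hc.mono h').mul hG) fun z hz hs => by rw [h0 z hz hs]; ring
  have h2 : Sm U fun z => χ z ^ 2 * G z ^ 2 :=
    sm_cut hU hΩ hS hSU ((hc.mono h').mul (hG.pow 2)) fun z hz hs => by rw [h0 z hz hs]; ring
  have h3 := smGd ok hχ hΩ h' hS hSU h0 hG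
  have sd := sdD ok hχ
  have sd' := sdD ot hχ
  have c1 : Sm U fun z => χ z ^ 2 * (4 * β * κ * G z) := by
    have : Sm U fun z => 4 * β * κ * (χ z ^ 2 * G z) := contDiffOn_const.mul h1
    exact this.congr fun z _ => by ring
  have c2 : Sm U (mI τ G χ H₁) := by
    have : Sm U fun z => (χ z ^ 2 * G z) / 3 - (H₁ * χ z ^ 2 + 45 * dD τ χ z) :=
      (h1.div_const _).sub ((contDiffOn_const.mul hc).add (contDiffOn_const.mul sd'))
    exact this.congr fun z _ => by unfold mI; ring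
  have c3 : Sm U (oI σ W G χ κ Cz) := by
    have : Sm U fun z => 4 * κ ^ 2 * (χ z ^ 2 * G z ^ 2) - (21900 * Cz ^ 2 *
        (σ.F W z * dD σ χ z) + κ * (G z * dD σ χ z) + σ.Λ χ z ^ 2) :=
      (contDiffOn_const.mul h2).sub (((contDiffOn_const.mul ((ok.sG hW hW).mul sd)).add
        (contDiffOn_const.mul h3)).add ((ok.sL hχ).pow 2))
    exact this.congr fun z _ => by unfold oI; ring
  have c4 : Sm U (oI' τ W G χ) := by
    have : Sm U fun z => (χ z ^ 2 * G z) * τ.F W z / 24 - 310 * (τ.F W z * dD τ χ z) :=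
      ((h1.mul (ot.sG hW hW)).div_const _).sub (contDiffOn_const.mul ((ot.sG hW hW).mul sd'))
    exact this.congr fun z _ => by unfold oI'; ring
  have tj := tJJ (β := β) (κ := κ) (Cz := Cz) ok ot hv₁ hv₂ hW ha hb hχ c1 c2 c3 c4
  have td : Te U fun z => χ z ^ 2 * dn σ τ v₁ v₂ W a b z := by
    have : Te U fun z => χ z ^ 2 * (sqd σ τ v₁ v₂ W a b z + sta σ τ v₁ v₂ W a b z) :=
      ((tsqd ok ot hv₁ hv₂ hW ha hb).add hU (tsta ok ot hv₁ hv₂ hW ha hb)).mul_left hU hc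
    exact this
  have cM := Q8.int_dens ok ot hv₁ hv₂ hW ha hb
    (MIn_ct (κ := κ) (β := β) ot hW hχ hΩ h' hS hSU h0 hG)
  have cC := Q8.int_dens ok ot hv₁ hv₂ hW ha hb
    (cIn_ct (κ := κ) (Cz := Cz) ok ot hW hχ hΩ h' hS hSU h0 hG)
  have es : In U θ (((MIn τ W G κ β).sm fun z => χ z ^ 2).dens σ τ v₁ v₂ W a b) -
      In U θ ((cIn σ τ W G χ κ Cz).dens σ τ v₁ v₂ W a b) =
      ∫ z in U, (θ z * ((MIn τ W G κ β).sm fun z => χ z ^ 2).dens σ τ v₁ v₂ W a b z -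
        θ z * (cIn σ τ W G χ κ Cz).dens σ τ v₁ v₂ W a b z) := by
    unfold In
    rw [integral_sub cM cC]
  have ed : In U θ (fun z => χ z ^ 2 * dn σ τ v₁ v₂ W a b z - JJ σ τ v₁ v₂ W G χ κ β Cz H₁ a b z) ≤
      In U θ (fun z => χ z ^ 2 * dn σ τ v₁ v₂ W a b z) := by
    rw [In_sub hU ok.ts td tj]
    linarith
  refine le_trans ?_ ed
  rw [es]
  refine setIntegral_mono_on (cM.sub cC) (te_int hU ok.ts (td.sub hU tj)) hU.measurableSet
    fun z hz => ?_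
  rw [← mul_sub]
  refine mul_le_mul_of_nonneg_left ?_ (ok.tp z hz).le
  by_cases hs : z ∈ S
  · have hz' := hSU ⟨hz, hs⟩
    have p := pin z hz'
    have g := ng z hz'
    have C1 := na.C1
    have N3 := na.N3
    have H0 : 0 ≤ H₁ := by rw [hH₁]; exact H1_nn (by linarith) (by linarith)
    refine cmp_on p.sx p.sy na.ε1 na.β0 na.κ0 p.wb.G1 ?_
    have g6 := g.g6
    rw [← hH₁] at g6
    have a1 : 0 ≤ (Fintype.card ι : ℝ) ^ 2 * C := by positivity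
    have a2 : 0 ≤ (Fintype.card ι : ℝ) * C := by positivity
    have a3 : 0 ≤ D1 (Fintype.card ι) C := D1_nn (by linarith) (by linarith)
    have a4 : 0 ≤ c8 C β κ := c8_nn (by linarith) (mul_pos na.β0 na.κ0)
    linarith
  · have e2 := J0 a b z hz hs
    have e3 : ((MIn τ W G κ β).sm fun z => χ z ^ 2).dens σ τ v₁ v₂ W a b z = 0 := by
      rw [Q8.dens_sm, h0 z hz hs]; ring
    have e4 : (cIn σ τ W G χ κ Cz).dens σ τ v₁ v₂ W a b z = 0 := by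
      simp only [Q8.dens, cIn]
      rw [dDz (σ := σ) hU hS h0 z hz hs, dDz (σ := τ) hU hS h0 z hz hs, Lz ok hS h0 z hz hs]
      ring
    have e5 : χ z ^ 2 * dn σ τ v₁ v₂ W a b z - JJ σ τ v₁ v₂ W G χ κ β Cz H₁ a b z = 0 := by
      rw [e2, h0 z hz hs]; ring
    rw [e3, e4]
    have : (fun z => χ z ^ 2 * dn σ τ v₁ v₂ W a b z - JJ σ τ v₁ v₂ W G χ κ β Cz H₁ a b z) z =
      χ z ^ 2 * dn σ τ v₁ v₂ W a b z - JJ σ τ v₁ v₂ W G χ κ β Cz H₁ a b z := rfl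
    linarith

end integral

end Vale.Agent.P088.R2.H660.P
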